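import Vale.Agent.Lib.P037.Gamma.Defs

open Finset

namespace Vale.Agent.Lib.P037.Gamma

variable {n : ℕ}

/-- The group of rows attached to the column `q`. -/
def Gp (g : Fin n → Option (Fin n)) (q : Fin n) : Finset (Fin n) := univ.filter (fun r => g r = some q)

@[simp] theorem mem_Gp {g : Fin n → Option (Fin n)} {q r : Fin n} : r ∈ Gp g q ↔ g r = some q := by
  simp [Gp]

/-- The number of superblocks of a group. -/
def JJ (g : Fin n → Option (Fin n)) (w : ℕ) (q : Fin n) : ℕ := (Gp g q).card / (2 * w)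

/-- The candidate half of a superblock. -/
def Xb (g : Fin n → Option (Fin n)) (w : ℕ) (i : Fin n × ℕ) : Finset (Fin n) :=
  (Gp g i.1).filter (fun r => 2 * w * i.2 ≤ rk (Gp g i.1) r ∧ rk (Gp g i.1) r < 2 * w * i.2 + w)

/-- The bridging half of a superblock. -/
def Yb (g : Fin n → Option (Fin n)) (w : ℕ) (i : Fin n × ℕ) : Finset (Fin n) :=
  (Gp g i.1).filter (fun r => 2 * w * i.2 + w ≤ rk (Gp g i.1) r ∧ rk (Gp g i.1) r < 2 * w * i.2 + 2 * w)

/-- The index set of superblocks. -/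
def Idx (g : Fin n → Option (Fin n)) (w : ℕ) (Q : Finset (Fin n)) : Finset (Fin n × ℕ) :=
  (Q ×ˢ range (n + 1)).filter (fun i => i.2 < JJ g w i.1)

variable {g : Fin n → Option (Fin n)} {w : ℕ} {Q : Finset (Fin n)}

theorem card_Gp_le (q : Fin n) : (Gp g q).card ≤ n := by
  calc (Gp g q).card ≤ (univ : Finset (Fin n)).card := Finset.card_le_card (Finset.subset_univ _)
    _ = n := by simp

theorem JJ_le (q : Fin n) : JJ g w q ≤ n := by
  unfold JJ
  calc (Gp g q).card / (2 * w) ≤ (Gp g q).card := Nat.div_le_self _ _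
    _ ≤ n := card_Gp_le q

theorem mem_Idx {q : Fin n} {j : ℕ} :
    (q, j) ∈ Idx g w Q ↔ q ∈ Q ∧ j < JJ g w q := by
  simp only [Idx, mem_filter, mem_product, mem_range]
  constructor
  · rintro ⟨⟨h1, _⟩, h3⟩
    exact ⟨h1, h3⟩
  · rintro ⟨h1, h3⟩
    have := JJ_le (g := g) (w := w) q
    exact ⟨⟨h1, by omega⟩, h3⟩

theorem two_w_le (hw : 0 < w) {q : Fin n} {j : ℕ} (h : j < JJ g w q) :
    2 * w * j + 2 * w ≤ (Gp g q).card := by
  unfold JJ at h
  have h1 : j + 1 ≤ (Gp g q).card / (2 * w) := h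
  have h2 := (Nat.le_div_iff_mul_le (by omega : 0 < 2 * w)).mp h1
  nlinarith

theorem card_Xb (hw : 0 < w) {q : Fin n} {j : ℕ} (h : j < JJ g w q) : (Xb g w (q, j)).card = w := by
  unfold Xb
  have h1 := two_w_le hw h
  have h2 := card_rk_block (a := 2 * w * j) (b := 2 * w * j + w) (Gp g q) (by omega)
  simpa using h2

theorem card_Yb (hw : 0 < w) {q : Fin n} {j : ℕ} (h : j < JJ g w q) : (Yb g w (q, j)).card = w := by
  unfold Yb
  have h1 := two_w_le hw h
  have h2 := card_rk_block (a := 2 * w * j + w) (b := 2 * w * j + 2 * w) (Gp g q) (by omega)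
  have e : 2 * w * j + 2 * w - (2 * w * j + w) = w := by omega
  simpa [e] using h2

theorem Xb_disjoint (hw : 0 < w) {i i' : Fin n × ℕ} (hne : i ≠ i') : Disjoint (Xb g w i) (Xb g w i') := by
  rw [Finset.disjoint_left]
  intro x hx hx'
  obtain ⟨h1, h2, h3⟩ := Finset.mem_filter.mp hx
  obtain ⟨h1', h2', h3'⟩ := Finset.mem_filter.mp hx'
  have hq : i.1 = i'.1 := by
    have e1 := mem_Gp.mp h1
    have e2 := mem_Gp.mp h1'
    rw [e1] at e2
    exact Option.some.inj e2
  apply hne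
  apply Prod.ext hq
  rw [← hq] at h2' h3'
  have hpos : 0 < 2 * w := by omega
  by_contra hj
  rcases Nat.lt_or_gt_of_ne hj with hlt | hgt
  · have : 2 * w * (i.2 + 1) ≤ 2 * w * i'.2 := Nat.mul_le_mul_left _ hlt
    nlinarith
  · have : 2 * w * (i'.2 + 1) ≤ 2 * w * i.2 := Nat.mul_le_mul_left _ hgt
    nlinarith

/-- Order between elements of one group compared through their ranks. -/
theorem lt_of_rk_lt {G : Finset (Fin n)} {x y : Fin n} (h : rk G x < rk G y) : x < y := by
  by_contra hcon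
  push Not at hcon
  have := rk_mono (G := G) hcon
  omega

theorem mem_Xb_rk {i : Fin n × ℕ} {x : Fin n} (hx : x ∈ Xb g w i) :
    g x = some i.1 ∧ 2 * w * i.2 ≤ rk (Gp g i.1) x ∧ rk (Gp g i.1) x < 2 * w * i.2 + w := by
  obtain ⟨h1, h2, h3⟩ := Finset.mem_filter.mp hx
  exact ⟨mem_Gp.mp h1, h2, h3⟩

theorem mem_Yb_rk {i : Fin n × ℕ} {x : Fin n} (hx : x ∈ Yb g w i) :
    g x = some i.1 ∧ 2 * w * i.2 + w ≤ rk (Gp g i.1) x ∧ rk (Gp g i.1) x < 2 * w * i.2 + 2 * w := by
  obtain ⟨h1, h2, h3⟩ := Finset.mem_filter.mp hx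
  exact ⟨mem_Gp.mp h1, h2, h3⟩

/-- Bridging rows of superblock `j` lie between the candidates of `j` and `j + 1`. -/
theorem Xb_lt_Yb {q : Fin n} {j : ℕ} {x y : Fin n} (hx : x ∈ Xb g w (q, j)) (hy : y ∈ Yb g w (q, j)) :
    x < y := by
  obtain ⟨_, _, h3⟩ := mem_Xb_rk hx
  obtain ⟨_, h5, _⟩ := mem_Yb_rk hy
  exact lt_of_rk_lt (G := Gp g q) (by simp only at h3 h5; omega)

theorem Yb_lt_Xb {q : Fin n} {j : ℕ} {x y : Fin n} (hx : x ∈ Yb g w (q, j))
    (hy : y ∈ Xb g w (q, j + 1)) : x < y := by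
  obtain ⟨_, _, h3⟩ := mem_Yb_rk hx
  obtain ⟨_, h5, _⟩ := mem_Xb_rk hy
  apply lt_of_rk_lt (G := Gp g q)
  simp only at h3 h5
  have : 2 * w * (j + 1) = 2 * w * j + 2 * w := by ring
  omega

/-- A row of superblock `j` with its neighbouring candidates. -/
theorem Xb_lt_row {q : Fin n} {j : ℕ} {x r : Fin n} (hx : x ∈ Xb g w (q, j))
    (hr : 2 * w * (j + 1) ≤ rk (Gp g q) r) : x < r := by
  obtain ⟨_, _, h3⟩ := mem_Xb_rk hx
  apply lt_of_rk_lt (G := Gp g q)
  simp only at h3
  have : 2 * w * (j + 1) = 2 * w * j + 2 * w := by ring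
  omega

theorem row_lt_Xb {q : Fin n} {j : ℕ} {x r : Fin n} (hx : x ∈ Xb g w (q, j))
    (hr : rk (Gp g q) r < 2 * w * j) : r < x := by
  obtain ⟨_, h3, _⟩ := mem_Xb_rk hx
  apply lt_of_rk_lt (G := Gp g q)
  simp only at h3
  omega

/-- Kept rows: those in an interior superblock. -/
def Kept (g : Fin n → Option (Fin n)) (w : ℕ) (q r : Fin n) : Prop :=
  g r = some q ∧ 1 ≤ rk (Gp g q) r / (2 * w) ∧ rk (Gp g q) r / (2 * w) + 1 < JJ g w q

instance (q r : Fin n) : Decidable (Kept g w q r) := by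
  unfold Kept; infer_instance

/-- Rows of a group that are not kept are few. -/
theorem card_not_kept (hw : 0 < w) (q : Fin n) :
    ((Gp g q).filter (fun r => ¬ Kept g w q r)).card ≤ 6 * w := by
  set G := Gp g q with hG
  set J := JJ g w q with hJ
  have hpos : 0 < 2 * w := by omega
  have hlast : G.card < 2 * w * (J + 1) := by
    have h1 : G.card / (2 * w) = J := rfl
    have h2 := Nat.lt_mul_div_succ G.card hpos
    rw [h1] at h2
    exact h2
  have hsub : G.filter (fun r => ¬ Kept g w q r) ⊆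
      G.filter (fun r => 0 ≤ rk G r ∧ rk G r < 2 * w) ∪
      G.filter (fun r => 2 * w * (J - 1) ≤ rk G r ∧ rk G r < G.card) := by
    intro r hr
    obtain ⟨hrG, hk⟩ := Finset.mem_filter.mp hr
    have hgr := mem_Gp.mp hrG
    have hlt := rk_lt_card hrG
    by_cases h1 : 1 ≤ rk G r / (2 * w)
    · apply Finset.mem_union_right
      refine Finset.mem_filter.mpr ⟨hrG, ?_, hlt⟩
      have h2 : ¬ rk G r / (2 * w) + 1 < J := fun h2 => hk ⟨hgr, h1, h2⟩
      have h4 : J - 1 ≤ rk G r / (2 * w) := by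
        generalize rk G r / (2 * w) = d at h2
        omega
      calc 2 * w * (J - 1) ≤ 2 * w * (rk G r / (2 * w)) := Nat.mul_le_mul_left _ h4
        _ ≤ rk G r := Nat.mul_div_le _ _
    · apply Finset.mem_union_left
      refine Finset.mem_filter.mpr ⟨hrG, Nat.zero_le _, ?_⟩
      have h2 : rk G r / (2 * w) = 0 := by
        generalize rk G r / (2 * w) = d at h1
        omega
      exact (Nat.div_eq_zero_iff_lt hpos).mp h2
  have h1 := card_rk_le (a := 0) (b := 2 * w) G
  have h2 := card_rk_le (a := 2 * w * (J - 1)) (b := G.card) G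
  have h3 := (Finset.card_le_card hsub).trans (Finset.card_union_le _ _)
  have h4 : G.card - 2 * w * (J - 1) ≤ 4 * w := by
    rcases Nat.eq_zero_or_pos J with h0 | h0
    · rw [h0] at hlast ⊢
      simp at hlast ⊢
      omega
    · have e : 2 * w * (J + 1) = 2 * w * (J - 1) + 4 * w := by
        obtain ⟨J', hJ'⟩ : ∃ J', J = J' + 1 := ⟨J - 1, by omega⟩
        rw [hJ']
        simp only [Nat.add_sub_cancel]
        ring
      omega
  omega

/-- A superblock has at most `2 w` rows. -/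
theorem card_superblock (hw : 0 < w) (q : Fin n) (j : ℕ) :
    ((Gp g q).filter (fun r => rk (Gp g q) r / (2 * w) = j)).card ≤ 2 * w := by
  have hpos : 0 < 2 * w := by omega
  have hsub : (Gp g q).filter (fun r => rk (Gp g q) r / (2 * w) = j) ⊆
      (Gp g q).filter (fun r => 2 * w * j ≤ rk (Gp g q) r ∧ rk (Gp g q) r < 2 * w * j + 2 * w) := by
    intro r hr
    obtain ⟨h1, h2⟩ := Finset.mem_filter.mp hr
    refine Finset.mem_filter.mpr ⟨h1, ?_, ?_⟩
    · rw [← h2]
      exact Nat.mul_div_le _ _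
    · have := Nat.lt_mul_div_succ (rk (Gp g q) r) hpos
      rw [h2] at this
      have e : 2 * w * (j + 1) = 2 * w * j + 2 * w := by ring
      omega
  have h3 := card_rk_le (a := 2 * w * j) (b := 2 * w * j + 2 * w) (Gp g q)
  have h4 := Finset.card_le_card hsub
  omega

end Vale.Agent.Lib.P037.Gamma
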