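import Mathlib

open Finset

namespace Vale.Agent.Lib.P037.Gamma

theorem sum_offDiag_insert {ι : Type*} [DecidableEq ι] (s : Finset ι) (a : ι) (h : a ∉ s)
    (f : ι × ι → ℝ) :
    ∑ p ∈ (insert a s).offDiag, f p =
      ∑ p ∈ s.offDiag, f p + ∑ i ∈ s, (f (i, a) + f (a, i)) := by
  rw [Finset.offDiag_insert h]
  have hd1 : Disjoint (s.offDiag ∪ ({a} ×ˢ s)) (s ×ˢ {a}) := by
    rw [Finset.disjoint_left]
    intro p hp hp2
    simp only [mem_union, mem_offDiag, mem_product, mem_singleton] at hp hp2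
    rcases hp with hp | hp
    · have h3 := hp.2.1
      rw [hp2.2] at h3
      exact h h3
    · have h3 := hp2.1
      rw [hp.1] at h3
      exact h h3
  have hd2 : Disjoint s.offDiag ({a} ×ˢ s) := by
    rw [Finset.disjoint_left]
    intro p hp hp2
    simp only [mem_offDiag, mem_product, mem_singleton] at hp hp2
    have h3 := hp.1
    rw [hp2.1] at h3
    exact h h3
  rw [Finset.sum_union hd1, Finset.sum_union hd2, Finset.sum_add_distrib]
  have h1 : ∑ p ∈ ({a} : Finset ι) ×ˢ s, f p = ∑ i ∈ s, f (a, i) := by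
    rw [Finset.sum_product]
    simp
  have h2 : ∑ p ∈ s ×ˢ ({a} : Finset ι), f p = ∑ i ∈ s, f (i, a) := by
    rw [Finset.sum_product]
    simp
  rw [h1, h2]
  ring

/-- Averaging over independent choices from disjoint blocks of equal size, with a potential made
of a singleton part `L` and a pair part `W`. -/
theorem avg_choice {ι α : Type*} [DecidableEq ι] [Inhabited α] (W : α → α → ℝ)
    (X : ι → Finset α) (w : ℝ) (hw : 0 < w) (s : Finset ι) (hX : ∀ i ∈ s, ((X i).card : ℝ) = w) :
    ∀ L : α → ℝ, ∃ ρ : ι → α, (∀ i ∈ s, ρ i ∈ X i) ∧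
      ∑ i ∈ s, L (ρ i) + ∑ p ∈ s.offDiag, W (ρ p.1) (ρ p.2) ≤
        (1 / w) * ∑ i ∈ s, ∑ x ∈ X i, L x +
          (1 / (w * w)) * ∑ p ∈ s.offDiag, ∑ x ∈ X p.1, ∑ y ∈ X p.2, W x y := by
  induction s using Finset.induction_on with
  | empty =>
    intro L
    exact ⟨fun _ => default, by simp, by simp⟩
  | insert a s has ih =>
    intro L
    have hXs : ∀ i ∈ s, ((X i).card : ℝ) = w := fun i hi => hX i (mem_insert_of_mem hi)
    have hXa : ((X a).card : ℝ) = w := hX a (mem_insert_self _ _)
    have hne : (X a).Nonempty := by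
      rw [← Finset.card_pos]
      have : (0 : ℝ) < ((X a).card : ℝ) := by rw [hXa]; exact hw
      exact_mod_cast this
    set L' : α → ℝ := fun x => L x + (1 / w) * ∑ y ∈ X a, (W x y + W y x) with hL'
    obtain ⟨ρ, hρ, hle⟩ := ih hXs L'
    set g : α → ℝ := fun y => L y + ∑ i ∈ s, (W (ρ i) y + W y (ρ i)) with hg
    have hex : ∃ y ∈ X a, g y ≤ (1 / w) * ∑ z ∈ X a, g z := by
      apply Finset.exists_le_of_sum_le hne
      rw [Finset.sum_const, nsmul_eq_mul, hXa]
      apply le_of_eq
      field_simp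
    obtain ⟨y, hy, hgy⟩ := hex
    refine ⟨Function.update ρ a y, ?_, ?_⟩
    · intro i hi
      rcases Finset.mem_insert.mp hi with rfl | hi'
      · simpa using hy
      · have hne' : i ≠ a := by
          intro h
          rw [h] at hi'
          exact has hi'
        simpa [Function.update_of_ne hne'] using hρ i hi'
    · have hu : ∀ i ∈ s, Function.update ρ a y i = ρ i := by
        intro i hi
        refine Function.update_of_ne ?_ _ _
        intro h
        rw [h] at hi
        exact has hi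
      have hua : Function.update ρ a y a = y := by simp
      rw [Finset.sum_insert has, sum_offDiag_insert s a has
        (fun p => W (Function.update ρ a y p.1) (Function.update ρ a y p.2)),
        sum_offDiag_insert s a has (fun p => ∑ x ∈ X p.1, ∑ y ∈ X p.2, W x y),
        Finset.sum_insert has]
      have e1 : ∑ i ∈ s, L (Function.update ρ a y i) = ∑ i ∈ s, L (ρ i) :=
        Finset.sum_congr rfl (fun i hi => by rw [hu i hi])
      have e2 : ∑ p ∈ s.offDiag, W (Function.update ρ a y p.1) (Function.update ρ a y p.2) =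
          ∑ p ∈ s.offDiag, W (ρ p.1) (ρ p.2) := by
        apply Finset.sum_congr rfl
        intro p hp
        have hp' := Finset.mem_offDiag.mp hp
        rw [hu _ hp'.1, hu _ hp'.2.1]
      have e3 : ∑ i ∈ s, (W (Function.update ρ a y i) (Function.update ρ a y a) +
          W (Function.update ρ a y a) (Function.update ρ a y i)) =
          ∑ i ∈ s, (W (ρ i) y + W y (ρ i)) := by
        apply Finset.sum_congr rfl
        intro i hi
        rw [hu i hi, hua]
      simp only [hua]
      rw [e1, e2]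
      have e3' : ∑ i ∈ s, (W (Function.update ρ a y i) y + W y (Function.update ρ a y i)) =
          ∑ i ∈ s, (W (ρ i) y + W y (ρ i)) := by
        apply Finset.sum_congr rfl
        intro i hi
        rw [hu i hi]
      rw [e3']
      -- expand the average of `g`
      have e4 : (1 / w) * ∑ z ∈ X a, g z = (1 / w) * ∑ z ∈ X a, L z +
          ∑ i ∈ s, ((1 / w) * ∑ z ∈ X a, (W (ρ i) z + W z (ρ i))) := by
        simp only [hg]
        rw [Finset.sum_add_distrib, mul_add, Finset.sum_comm (s := X a) (t := s)]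
        congr 1
        rw [Finset.mul_sum]
      -- expand the singleton part of the induction hypothesis
      have e5 : ∑ i ∈ s, L' (ρ i) = ∑ i ∈ s, L (ρ i) +
          ∑ i ∈ s, ((1 / w) * ∑ z ∈ X a, (W (ρ i) z + W z (ρ i))) := by
        simp only [hL']
        rw [Finset.sum_add_distrib]
      have e6 : ∑ i ∈ s, ∑ x ∈ X i, L' x = ∑ i ∈ s, ∑ x ∈ X i, L x +
          (1 / w) * ∑ i ∈ s, (∑ x ∈ X i, ∑ z ∈ X a, W x z + ∑ z ∈ X a, ∑ x ∈ X i, W z x) := by
        simp only [hL']
        rw [Finset.mul_sum, ← Finset.sum_add_distrib]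
        apply Finset.sum_congr rfl
        intro i _
        rw [Finset.sum_add_distrib, ← Finset.mul_sum]
        congr 2
        simp only [Finset.sum_add_distrib]
        congr 1
        rw [Finset.sum_comm]
      rw [e5, e6] at hle
      have hw' : (1 / w) * (1 / w) = 1 / (w * w) := by field_simp
      have e7 : (1 / w) * (∑ i ∈ s, ∑ x ∈ X i, L x +
          (1 / w) * ∑ i ∈ s, (∑ x ∈ X i, ∑ z ∈ X a, W x z + ∑ z ∈ X a, ∑ x ∈ X i, W z x)) =
          (1 / w) * ∑ i ∈ s, ∑ x ∈ X i, L x + (1 / (w * w)) *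
            ∑ i ∈ s, (∑ x ∈ X i, ∑ z ∈ X a, W x z + ∑ z ∈ X a, ∑ x ∈ X i, W z x) := by
        rw [mul_add, ← mul_assoc, hw']
      rw [e7] at hle
      rw [e4] at hgy
      simp only [hg] at hgy
      have hsplit : (1 / (w * w)) * (∑ p ∈ s.offDiag, ∑ x ∈ X p.1, ∑ y ∈ X p.2, W x y +
          ∑ i ∈ s, (∑ x ∈ X i, ∑ z ∈ X a, W x z + ∑ z ∈ X a, ∑ x ∈ X i, W z x)) =
          (1 / (w * w)) * ∑ p ∈ s.offDiag, ∑ x ∈ X p.1, ∑ y ∈ X p.2, W x y +
          (1 / (w * w)) * ∑ i ∈ s, (∑ x ∈ X i, ∑ z ∈ X a, W x z + ∑ z ∈ X a, ∑ x ∈ X i, W z x) := by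
        rw [mul_add]
      rw [hsplit, mul_add]
      linarith

end Vale.Agent.Lib.P037.Gamma
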