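import Mathlib

open Finset

namespace Vale.Agent.Lib.P037.Gamma

variable {n : ℕ}

/-- `FS U V`: the set `U` meets `V` in a final segment of `V`. -/
def FS (U V : Finset (Fin n)) : Prop := ∀ x ∈ V, ∀ y ∈ V, x < y → x ∈ U → y ∈ U

/-- One step of the implication relation generated by the family members before position `t`. -/
def Step (Rep : Finset (Fin n)) (S : Fin n → Finset (Fin n)) (t : Fin n) (a b : Fin n) : Prop :=
  a < b ∧ ∃ j ∈ Rep, j < t ∧ a ∈ S j ∧ b ∈ S j

/-- The reflexive transitive closure of `Step`. -/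
def Reach (Rep : Finset (Fin n)) (S : Fin n → Finset (Fin n)) (t : Fin n) : Fin n → Fin n → Prop :=
  Relation.ReflTransGen (Step Rep S t)

variable {Rep : Finset (Fin n)} {S : Fin n → Finset (Fin n)} {t : Fin n}

theorem step_diamond (hfam : ∀ i ∈ Rep, ∀ j ∈ Rep, i < j → FS (S j) (S i))
    {a x y : Fin n} (h1 : Step Rep S t a x) (h2 : Step Rep S t a y) (hxy : x < y) :
    Step Rep S t x y := by
  obtain ⟨hax, i, hi, hit, hai, hxi⟩ := h1
  obtain ⟨hay, j, hj, hjt, haj, hyj⟩ := h2
  refine ⟨hxy, ?_⟩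
  rcases lt_trichotomy i j with hij | hij | hij
  · have hxj : x ∈ S j := hfam i hi j hj hij a hai x hxi hax haj
    exact ⟨j, hj, hjt, hxj, hyj⟩
  · subst hij
    exact ⟨i, hi, hit, hxi, hyj⟩
  · have hyi : y ∈ S i := hfam j hj i hi hij a haj y hyj hay hai
    exact ⟨i, hi, hit, hxi, hyi⟩

theorem reach_le {a b : Fin n} (h : Reach Rep S t a b) : a ≤ b := by
  induction h with
  | refl => exact le_rfl
  | tail _ h2 ih => exact ih.trans h2.1.le

theorem reach_of_step {a y : Fin n} (hfam : ∀ i ∈ Rep, ∀ j ∈ Rep, i < j → FS (S j) (S i))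
    (h : Reach Rep S t a y) : ∀ {x : Fin n}, Step Rep S t a x → x ≤ y → Reach Rep S t x y := by
  induction h using Relation.ReflTransGen.head_induction_on with
  | refl =>
    intro x hs hxy
    exact absurd hs.1 (not_lt.mpr hxy)
  | @head a c hac hcy ih =>
    intro x hs hxy
    rcases lt_trichotomy x c with hxc | hxc | hxc
    · exact Relation.ReflTransGen.head (step_diamond hfam hs hac hxc) hcy
    · subst hxc
      exact hcy
    · exact ih (step_diamond hfam hac hs hxc) hxy

theorem reach_chain (hfam : ∀ i ∈ Rep, ∀ j ∈ Rep, i < j → FS (S j) (S i))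
    {a x y : Fin n} (hx : Reach Rep S t a x) : Reach Rep S t a y → x < y → Reach Rep S t x y := by
  induction hx using Relation.ReflTransGen.head_induction_on with
  | refl =>
    intro hy _
    exact hy
  | head hac hcx ih =>
    intro hy hxy
    have hcx' := reach_le hcx
    exact ih (reach_of_step hfam hy hac (hcx'.trans hxy.le)) hxy

/-- The up-closure, at time `t`, of a set `X`. -/
def Clo (Rep : Finset (Fin n)) (S : Fin n → Finset (Fin n)) (t : Fin n) (X : Finset (Fin n))
    (c : Fin n) : Prop :=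
  ∃ a ∈ X, Reach Rep S t a c

theorem reach_mono {t t' : Fin n} (htt : t ≤ t') {a b : Fin n} (h : Reach Rep S t a b) :
    Reach Rep S t' a b := by
  induction h with
  | refl => exact Relation.ReflTransGen.refl
  | tail _ h2 ih =>
    obtain ⟨hxy, j, hj, hjt, h3, h4⟩ := h2
    exact Relation.ReflTransGen.tail ih ⟨hxy, j, hj, hjt.trans_le htt, h3, h4⟩

/-- Two elements of the closure of a family member are linked by the relation. -/
theorem clo_chain (hfam : ∀ i ∈ Rep, ∀ j ∈ Rep, i < j → FS (S j) (S i))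
    {ρ : Fin n} (hρ : ρ ∈ Rep) (hρt : ρ < t) {x y : Fin n}
    (hx : Clo Rep S t (S ρ) x) (hy : Clo Rep S t (S ρ) y) (hxy : x < y) :
    Reach Rep S t x y := by
  obtain ⟨a, ha, hax⟩ := hx
  obtain ⟨b, hb, hby⟩ := hy
  rcases lt_trichotomy a b with hab | hab | hab
  · have hs : Step Rep S t a b := ⟨hab, ρ, hρ, hρt, ha, hb⟩
    have hay : Reach Rep S t a y := Relation.ReflTransGen.head hs hby
    exact reach_chain hfam hax hay hxy
  · subst hab
    exact reach_chain hfam hax hby hxy
  · have hs : Step Rep S t b a := ⟨hab, ρ, hρ, hρt, hb, ha⟩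
    have hbx : Reach Rep S t b x := Relation.ReflTransGen.head hs hax
    exact reach_chain hfam hbx hby hxy

/-- Closures at later times are closed under the implications of earlier closures. -/
theorem clo_free (hfam : ∀ i ∈ Rep, ∀ j ∈ Rep, i < j → FS (S j) (S i))
    {ρ ρ' r r' : Fin n} (hρ : ρ ∈ Rep) (hρr : ρ < r) (hrr : r < r')
    {c c' : Fin n} (hcc : c < c')
    (h1 : Clo Rep S r (S ρ) c) (h2 : Clo Rep S r (S ρ) c') (h3 : Clo Rep S r' (S ρ') c) :
    Clo Rep S r' (S ρ') c' := by
  have hreach := clo_chain hfam hρ hρr h1 h2 hcc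
  obtain ⟨a, ha, hac⟩ := h3
  exact ⟨a, ha, hac.trans (reach_mono hrr.le hreach)⟩

/-- Lower bound of the closure. -/
theorem sub_clo {X : Finset (Fin n)} {c : Fin n} (hc : c ∈ X) : Clo Rep S t X c :=
  ⟨c, hc, Relation.ReflTransGen.refl⟩

/-- Upper bound of the closure: a set closed under the earlier family members contains it. -/
theorem clo_sub {U X : Finset (Fin n)} (hU : ∀ j ∈ Rep, j < t → FS U (S j)) (hX : X ⊆ U)
    {c : Fin n} (hc : Clo Rep S t X c) : c ∈ U := by
  obtain ⟨a, ha, hac⟩ := hc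
  have : a ∈ U := hX ha
  induction hac with
  | refl => exact this
  | tail _ h2 ih =>
    obtain ⟨hlt, j, hj, hjt, h3, h4⟩ := h2
    exact hU j hj hjt _ h3 _ h4 hlt ih

end Vale.Agent.Lib.P037.Gamma
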