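import Vale.Agent.Lib.P037.Gamma.Reps
import Vale.Agent.Lib.P037.Gamma.Closure
import Vale.Agent.Lib.P037.Basic

open Finset

namespace Vale.Agent.Lib.P037.Gamma

variable {n : ℕ}

/-- The ones of a row from its group column on. -/
def Sc (A : Fin n → Fin n → Bool) (g : Fin n → Option (Fin n)) (r : Fin n) : Finset (Fin n) :=
  (Sr A r).filter (fun c => ∀ q, g r = some q → q ≤ c)

theorem mem_Sc {A : Fin n → Fin n → Bool} {g : Fin n → Option (Fin n)} {r c : Fin n} :
    c ∈ Sc A g r ↔ A r c = true ∧ ∀ q, g r = some q → q ≤ c := by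
  simp [Sc]

theorem mem_Sc_of_some {A : Fin n → Fin n → Bool} {g : Fin n → Option (Fin n)} {r c q : Fin n}
    (h : g r = some q) : c ∈ Sc A g r ↔ A r c = true ∧ q ≤ c := by
  rw [mem_Sc]
  constructor
  · rintro ⟨h1, h2⟩
    exact ⟨h1, h2 q h⟩
  · rintro ⟨h1, h2⟩
    refine ⟨h1, ?_⟩
    intro q' hq'
    rw [h] at hq'
    rw [← Option.some.inj hq']
    exact h2

theorem Cr_eq_card (A : Fin n → Fin n → Bool) (x y : Fin n) :
    Cr A x y = ((univ : Finset (Fin n × Fin n)).filter (fun p => Gam A x y p.1 p.2)).card := by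
  unfold Cr Yc
  rw [Finset.card_filter]
  conv_rhs => rw [Fintype.sum_prod_type]
  apply Finset.sum_congr rfl
  intro c _
  rw [Finset.card_filter]

/-- Column deletion for one pair of rows. -/
theorem pair_clean (A : Fin n → Fin n → Bool) (g : Fin n → Option (Fin n)) (x y : Fin n) (s : ℕ)
    (hxy : x < y) (hC : Cr A x y < (s + 1) * (s + 1)) :
    ∃ D : Finset (Fin n), D.card ≤ 2 * s ∧ ∀ c c', c < c' → c ∉ D → c' ∉ D →
      c ∈ Sc A g x → c ∈ Sc A g y → c' ∈ Sc A g x → c' ∈ Sc A g y := by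
  classical
  set X := Sc A g x ∩ Sc A g y with hX
  set Y := Sc A g x \ Sc A g y with hY
  have hd : Disjoint X Y := by
    rw [Finset.disjoint_left]
    intro c hc hc'
    exact (Finset.mem_sdiff.mp hc').2 (Finset.mem_inter.mp hc).2
  have hcount : ((X ×ˢ Y).filter (fun p => p.1 < p.2)).card ≤ Cr A x y := by
    rw [Cr_eq_card]
    apply Finset.card_le_card
    intro p hp
    obtain ⟨hp1, hlt⟩ := Finset.mem_filter.mp hp
    obtain ⟨h1, h2⟩ := Finset.mem_product.mp hp1
    obtain ⟨h3, h4⟩ := Finset.mem_inter.mp h1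
    obtain ⟨h5, h6⟩ := Finset.mem_sdiff.mp h2
    refine Finset.mem_filter.mpr ⟨mem_univ _, hxy, hlt, ?_, ?_, ?_, ?_⟩
    · exact (mem_Sc.mp h3).1
    · exact (mem_Sc.mp h5).1
    · exact (mem_Sc.mp h4).1
    · by_contra hcon
      have hone : A y p.2 = true := by
        cases hv : A y p.2 with
        | true => rfl
        | false => exact absurd hv hcon
      apply h6
      refine mem_Sc.mpr ⟨hone, ?_⟩
      intro q hq
      exact ((mem_Sc.mp h4).2 q hq).trans hlt.le
  obtain ⟨κ, h1, h2⟩ := Vale.Agent.Lib.P037.threshold_exists X Y hd s (lt_of_le_of_lt hcount hC)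
  refine ⟨X.filter (fun c => c.val < κ) ∪ Y.filter (fun c => κ ≤ c.val), ?_, ?_⟩
  · have := Finset.card_union_le (X.filter (fun c => c.val < κ)) (Y.filter (fun c => κ ≤ c.val))
    omega
  · intro c c' hcc hc hc' h3 h4 h5
    by_contra hcon
    have hcX : c ∈ X := Finset.mem_inter.mpr ⟨h3, h4⟩
    have hcY : c' ∈ Y := Finset.mem_sdiff.mpr ⟨h5, hcon⟩
    have h6 : κ ≤ c.val := by
      by_contra h7
      push Not at h7
      exact hc (Finset.mem_union_left _ (Finset.mem_filter.mpr ⟨hcX, h7⟩))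
    have h8 : c'.val < κ := by
      by_contra h7
      push Not at h7
      exact hc' (Finset.mem_union_right _ (Finset.mem_filter.mpr ⟨hcY, h7⟩))
    have h9 : c.val < c'.val := hcc
    omega

variable {g : Fin n → Option (Fin n)} {w : ℕ} {Q : Finset (Fin n)}

/-- Consecutive representatives of one group are nearly nested. -/
theorem bridge (hw : 0 < w) {A : Fin n → Fin n → Bool} (hgA : ∀ r q, g r = some q → A r q = true)
    {q : Fin n} {j : ℕ} {x y : Fin n} (hj : j < JJ g w q)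
    (hx : x ∈ Xb g w (q, j)) (hy : y ∈ Xb g w (q, j + 1)) :
    w * (Sc A g x \ Sc A g y).card ≤ Lp A g x + Lp A g y := by
  classical
  obtain ⟨hgx, _, _⟩ := mem_Xb_rk hx
  obtain ⟨hgy, _, _⟩ := mem_Xb_rk hy
  simp only at hgx hgy
  have hone : ∀ r ∈ Yb g w (q, j), (Sc A g x \ Sc A g y).card ≤ Yc A q x r + Yc A q r y := by
    intro r hr
    obtain ⟨hgr, _, _⟩ := mem_Yb_rk hr
    simp only at hgr
    have hxr := Xb_lt_Yb hx hr
    have hry := Yb_lt_Xb hr hy
    have hsub : Sc A g x \ Sc A g y ⊆ (univ.filter (fun c => Gam A x r q c)) ∪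
        (univ.filter (fun c => Gam A r y q c)) := by
      intro c hc
      obtain ⟨hc1, hc2⟩ := Finset.mem_sdiff.mp hc
      obtain ⟨hc3, hc4⟩ := (mem_Sc_of_some hgx).mp hc1
      have hAy : A y c = false := by
        by_contra hcon
        apply hc2
        refine (mem_Sc_of_some hgy).mpr ⟨?_, hc4⟩
        cases hv : A y c with
        | true => rfl
        | false => exact absurd hv hcon
      have hqc : q < c := by
        rcases hc4.lt_or_eq with h | h
        · exact h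
        · exfalso
          rw [← h] at hAy
          rw [hgA y q hgy] at hAy
          simp at hAy
      cases hv : A r c with
      | false =>
        apply Finset.mem_union_left
        exact Finset.mem_filter.mpr ⟨mem_univ _, hxr, hqc, hgA x q hgx, hc3, hgA r q hgr, hv⟩
      | true =>
        apply Finset.mem_union_right
        exact Finset.mem_filter.mpr ⟨mem_univ _, hry, hqc, hgA r q hgr, hv, hgA y q hgy, hAy⟩
    exact (Finset.card_le_card hsub).trans (Finset.card_union_le _ _)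
  have hcardY := card_Yb hw hj
  calc w * (Sc A g x \ Sc A g y).card = ∑ _r ∈ Yb g w (q, j), (Sc A g x \ Sc A g y).card := by
        rw [Finset.sum_const, hcardY, smul_eq_mul]
    _ ≤ ∑ r ∈ Yb g w (q, j), (Yc A q x r + Yc A q r y) := Finset.sum_le_sum hone
    _ = ∑ r ∈ Yb g w (q, j), Yc A q x r + ∑ r ∈ Yb g w (q, j), Yc A q r y :=
        Finset.sum_add_distrib
    _ ≤ ∑ r, Yc A q x r + ∑ r, Yc A q r y := by
        apply add_le_add <;> exact Finset.sum_le_sum_of_subset (Finset.subset_univ _)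
    _ ≤ Lp A g x + Lp A g y := by
        rw [Lp_eq hgx, Lp_eq hgy]
        apply add_le_add
        · rw [Finset.sum_add_distrib]
          exact Nat.le_add_right _ _
        · rw [Finset.sum_add_distrib]
          exact Nat.le_add_left _ _

/-- The set of indices with a successor in the same group. -/
def Idx' (g : Fin n → Option (Fin n)) (w : ℕ) (Q : Finset (Fin n)) : Finset (Fin n × ℕ) :=
  (Idx g w Q).filter (fun i => (i.1, i.2 + 1) ∈ Idx g w Q)

/-- First part of the deleted columns. -/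
def D1 (A : Fin n → Fin n → Bool) (g : Fin n → Option (Fin n)) (w : ℕ) (Q : Finset (Fin n))
    (ρ : Fin n × ℕ → Fin n) : Finset (Fin n) :=
  (Idx' g w Q).biUnion (fun i => Sc A g (ρ i) \ Sc A g (ρ (i.1, i.2 + 1)))

theorem card_D1 (hw : 0 < w) {A : Fin n → Fin n → Bool} (hgA : ∀ r q, g r = some q → A r q = true)
    {ρ : Fin n × ℕ → Fin n} (hρ : ∀ i ∈ Idx g w Q, ρ i ∈ Xb g w i) :
    w * (D1 A g w Q ρ).card ≤ 2 * ∑ i ∈ Idx g w Q, Lp A g (ρ i) := by
  classical
  have h1 : (D1 A g w Q ρ).card ≤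
      ∑ i ∈ Idx' g w Q, (Sc A g (ρ i) \ Sc A g (ρ (i.1, i.2 + 1))).card := Finset.card_biUnion_le
  have h2 : ∀ i ∈ Idx' g w Q, w * (Sc A g (ρ i) \ Sc A g (ρ (i.1, i.2 + 1))).card ≤
      Lp A g (ρ i) + Lp A g (ρ (i.1, i.2 + 1)) := by
    rintro ⟨q, j⟩ hi
    obtain ⟨hi1, hi2⟩ := Finset.mem_filter.mp hi
    exact bridge hw hgA (mem_Idx.mp hi1).2 (hρ _ hi1) (hρ _ hi2)
  have h3 : ∑ i ∈ Idx' g w Q, Lp A g (ρ i) ≤ ∑ i ∈ Idx g w Q, Lp A g (ρ i) :=
    Finset.sum_le_sum_of_subset (Finset.filter_subset _ _)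
  have h4 : ∑ i ∈ Idx' g w Q, Lp A g (ρ (i.1, i.2 + 1)) ≤ ∑ i ∈ Idx g w Q, Lp A g (ρ i) := by
    have hinj : Set.InjOn (fun i : Fin n × ℕ => (i.1, i.2 + 1)) (Idx' g w Q : Set (Fin n × ℕ)) := by
      rintro ⟨q, j⟩ _ ⟨q', j'⟩ _ h
      simp only [Prod.mk.injEq, add_left_inj] at h
      rw [h.1, h.2]
    calc ∑ i ∈ Idx' g w Q, Lp A g (ρ (i.1, i.2 + 1))
        = ∑ i ∈ (Idx' g w Q).image (fun i : Fin n × ℕ => (i.1, i.2 + 1)), Lp A g (ρ i) :=
          (Finset.sum_image (f := fun i => Lp A g (ρ i)) hinj).symm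
      _ ≤ _ := by
          apply Finset.sum_le_sum_of_subset
          intro i hi
          obtain ⟨i0, hi0, rfl⟩ := Finset.mem_image.mp hi
          exact (Finset.mem_filter.mp hi0).2
  calc w * (D1 A g w Q ρ).card
      ≤ w * ∑ i ∈ Idx' g w Q, (Sc A g (ρ i) \ Sc A g (ρ (i.1, i.2 + 1))).card :=
        Nat.mul_le_mul_left _ h1
    _ = ∑ i ∈ Idx' g w Q, w * (Sc A g (ρ i) \ Sc A g (ρ (i.1, i.2 + 1))).card := Finset.mul_sum _ _ _
    _ ≤ ∑ i ∈ Idx' g w Q, (Lp A g (ρ i) + Lp A g (ρ (i.1, i.2 + 1))) := Finset.sum_le_sum h2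
    _ = ∑ i ∈ Idx' g w Q, Lp A g (ρ i) + ∑ i ∈ Idx' g w Q, Lp A g (ρ (i.1, i.2 + 1)) :=
        Finset.sum_add_distrib
    _ ≤ 2 * ∑ i ∈ Idx g w Q, Lp A g (ρ i) := by omega

end Vale.Agent.Lib.P037.Gamma
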