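import Vale.Agent.Lib.P037.Gamma.Clean

open Finset

namespace Vale.Agent.Lib.P037.Gamma

variable {n : ℕ}

/-- Cleaned rows. -/
def Cl (A : Fin n → Fin n → Bool) (g : Fin n → Option (Fin n)) (D : Finset (Fin n)) (r : Fin n) :
    Finset (Fin n) := Sc A g r \ D

/-- Set of representatives. -/
def RepS (g : Fin n → Option (Fin n)) (w : ℕ) (Q : Finset (Fin n)) (ρ : Fin n × ℕ → Fin n) :
    Finset (Fin n) := (Idx g w Q).image ρ

/-- Superblock index of a row in its group. -/
def jb (g : Fin n → Option (Fin n)) (w : ℕ) (q r : Fin n) : ℕ := rk (Gp g q) r / (2 * w)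

open scoped Classical in
/-- The final matrix. -/
noncomputable def Bm (A : Fin n → Fin n → Bool) (g : Fin n → Option (Fin n)) (w : ℕ)
    (Q : Finset (Fin n)) (ρ : Fin n × ℕ → Fin n) (D : Finset (Fin n)) (r c : Fin n) : Bool :=
  decide (∃ q, Kept g w q r ∧
    Clo (RepS g w Q ρ) (Cl A g D) r (Cl A g D (ρ (q, jb g w q r - 1))) c)

variable {A : Fin n → Fin n → Bool} {g : Fin n → Option (Fin n)} {w : ℕ} {Q : Finset (Fin n)}
  {ρ : Fin n × ℕ → Fin n} {D : Finset (Fin n)}

/-- Facts on the neighbouring representatives of a kept row. -/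
theorem kept_facts (hw : 0 < w) (hgQ : ∀ r q, g r = some q → q ∈ Q)
    (hρ : ∀ i ∈ Idx g w Q, ρ i ∈ Xb g w i) {q r : Fin n} (hk : Kept g w q r) :
    (q, jb g w q r - 1) ∈ Idx g w Q ∧ (q, jb g w q r) ∈ Idx g w Q ∧ (q, jb g w q r + 1) ∈ Idx g w Q ∧
      jb g w q r - 1 + 1 = jb g w q r ∧
      ρ (q, jb g w q r - 1) < r ∧ r < ρ (q, jb g w q r + 1) := by
  obtain ⟨h1, h2, h3⟩ := hk
  have hq := hgQ r q h1
  change 1 ≤ jb g w q r at h2
  change jb g w q r + 1 < JJ g w q at h3
  have hpos : 0 < 2 * w := by omega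
  have hI1 : (q, jb g w q r - 1) ∈ Idx g w Q := mem_Idx.mpr ⟨hq, by omega⟩
  have hI3 : (q, jb g w q r + 1) ∈ Idx g w Q := mem_Idx.mpr ⟨hq, h3⟩
  have e : jb g w q r - 1 + 1 = jb g w q r := by omega
  refine ⟨hI1, mem_Idx.mpr ⟨hq, by omega⟩, hI3, e, ?_, ?_⟩
  · apply Xb_lt_row (hρ _ hI1)
    rw [e]
    exact Nat.mul_div_le _ _
  · apply row_lt_Xb (hρ _ hI3)
    exact Nat.lt_mul_div_succ (rk (Gp g q) r) hpos

theorem rep_mem {i : Fin n × ℕ} (hi : i ∈ Idx g w Q) : ρ i ∈ RepS g w Q ρ :=
  Finset.mem_image_of_mem _ hi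

/-- The final matrix has no copy of the pattern. -/
theorem Bm_free (hw : 0 < w) (hgQ : ∀ r q, g r = some q → q ∈ Q)
    (hρ : ∀ i ∈ Idx g w Q, ρ i ∈ Xb g w i)
    (hfam : ∀ x ∈ RepS g w Q ρ, ∀ y ∈ RepS g w Q ρ, x < y → FS (Cl A g D y) (Cl A g D x))
    (r r' c c' : Fin n) : ¬ Gam (Bm A g w Q ρ D) r r' c c' := by
  classical
  rintro ⟨hrr, hcc, h1, h2, h3, h4⟩
  unfold Bm at h1 h2 h3 h4
  simp only [decide_eq_true_eq, decide_eq_false_iff_not] at h1 h2 h3 h4
  obtain ⟨q, hk, hc⟩ := h1
  obtain ⟨q2, hk2, hc2⟩ := h2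
  obtain ⟨q', hk', hc'⟩ := h3
  have hqq : q2 = q := by
    have e1 := hk.1
    have e2 := hk2.1
    rw [e1] at e2
    exact (Option.some.inj e2).symm
  subst hqq
  obtain ⟨hI1, _, _, _, hlt, _⟩ := kept_facts hw hgQ hρ hk
  apply h4
  refine ⟨q', hk', ?_⟩
  exact clo_free hfam (rep_mem hI1) hlt hrr hcc hc hc2 hc'

/-- Nestedness of consecutive cleaned representatives. -/
theorem cl_nest (hD : D1 A g w Q ρ ⊆ D) {q : Fin n} {j : ℕ} (h1 : (q, j) ∈ Idx g w Q)
    (h2 : (q, j + 1) ∈ Idx g w Q) : Cl A g D (ρ (q, j)) ⊆ Cl A g D (ρ (q, j + 1)) := by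
  intro c hc
  obtain ⟨hc1, hc2⟩ := Finset.mem_sdiff.mp hc
  refine Finset.mem_sdiff.mpr ⟨?_, hc2⟩
  by_contra hcon
  apply hc2
  apply hD
  unfold D1
  refine Finset.mem_biUnion.mpr ⟨(q, j), Finset.mem_filter.mpr ⟨h1, h2⟩, ?_⟩
  exact Finset.mem_sdiff.mpr ⟨hc1, hcon⟩

/-- Number of entries of row `r` in which two matrices differ. -/
def rowdiff (A B : Fin n → Fin n → Bool) (r : Fin n) : ℕ :=
  (univ.filter (fun c => A r c ≠ B r c)).card

theorem rowdiff_not_kept (r : Fin n) (hk : ∀ q, ¬ Kept g w q r) :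
    rowdiff A (Bm A g w Q ρ D) r ≤ (Sr A r).card := by
  classical
  apply Finset.card_le_card
  intro c hc
  have hne := (Finset.mem_filter.mp hc).2
  have hB : Bm A g w Q ρ D r c = false := by
    unfold Bm
    simp only [decide_eq_false_iff_not]
    rintro ⟨q, hq, _⟩
    exact hk q hq
  rw [hB] at hne
  simp only [ne_eq, Bool.not_eq_false] at hne
  exact mem_Sr.mpr hne

/-- Cost of a kept row. -/
theorem rowdiff_kept (hw : 0 < w) (hgQ : ∀ r q, g r = some q → q ∈ Q)
    (hgA : ∀ r q, g r = some q → A r q = true)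
    (hρ : ∀ i ∈ Idx g w Q, ρ i ∈ Xb g w i) (hD : D1 A g w Q ρ ⊆ D)
    (hfam : ∀ x ∈ RepS g w Q ρ, ∀ y ∈ RepS g w Q ρ, x < y → FS (Cl A g D y) (Cl A g D x))
    {q r : Fin n} (hk : Kept g w q r) :
    rowdiff A (Bm A g w Q ρ D) r ≤ ((Sr A r).filter (fun c => c < q)).card + D.card +
      Yc A q r (ρ (q, jb g w q r + 1)) + Yc A q (ρ (q, jb g w q r - 1)) r +
      (Cl A g D (ρ (q, jb g w q r + 1)) \ Cl A g D (ρ (q, jb g w q r - 1))).card := by
  classical
  obtain ⟨hI1, hI2, hI3, he, hlt, hlt'⟩ := kept_facts hw hgQ hρ hk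
  set lo := ρ (q, jb g w q r - 1) with hlo
  set up := ρ (q, jb g w q r + 1) with hup
  have hgr := hk.1
  have hglo : g lo = some q := (mem_Xb_rk (hρ _ hI1)).1
  have hgup : g up = some q := (mem_Xb_rk (hρ _ hI3)).1
  -- the closure of the lower representative lies in the upper one
  have hnest : Cl A g D lo ⊆ Cl A g D up := by
    have h1 := cl_nest (A := A) (ρ := ρ) hD hI1 (by rw [he]; exact hI2)
    have h2 := cl_nest (A := A) (ρ := ρ) hD hI2 hI3
    rw [he] at h1
    exact h1.trans h2
  have hcloup : ∀ c, Clo (RepS g w Q ρ) (Cl A g D) r (Cl A g D lo) c → c ∈ Cl A g D up := by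
    intro c hc
    apply clo_sub _ hnest hc
    intro j hj hjr
    exact hfam j hj up (rep_mem hI3) (hjr.trans hlt')
  have hB : ∀ c, Bm A g w Q ρ D r c = true ↔ Clo (RepS g w Q ρ) (Cl A g D) r (Cl A g D lo) c := by
    intro c
    unfold Bm
    simp only [decide_eq_true_eq]
    constructor
    · rintro ⟨q', hk', hc⟩
      have hqq : q' = q := by
        have e1 := hk'.1
        rw [hgr] at e1
        exact (Option.some.inj e1).symm
      subst hqq
      exact hc
    · intro hc
      exact ⟨q, hk, hc⟩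
  have hsub : univ.filter (fun c => A r c ≠ Bm A g w Q ρ D r c) ⊆
      (((((Sr A r).filter (fun c => c < q)) ∪ D) ∪ (univ.filter (fun c => Gam A r up q c))) ∪
        (univ.filter (fun c => Gam A lo r q c))) ∪ (Cl A g D up \ Cl A g D lo) := by
    intro c hc
    have hne := (Finset.mem_filter.mp hc).2
    simp only [mem_union, mem_filter, mem_univ, true_and, mem_sdiff]
    cases hA : A r c with
    | true =>
      have hBf : ¬ Clo (RepS g w Q ρ) (Cl A g D) r (Cl A g D lo) c := by
        intro hcl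
        have := (hB c).mpr hcl
        rw [hA, this] at hne
        exact hne rfl
      by_cases h1 : c < q
      · left; left; left; left
        exact ⟨mem_Sr.mpr hA, h1⟩
      by_cases h2 : c ∈ D
      · left; left; left; right
        exact h2
      have hqc : q ≤ c := not_lt.mp h1
      have h3 : c ∉ Cl A g D lo := fun h => hBf (sub_clo h)
      by_cases h4 : c ∈ Cl A g D up
      · right
        exact ⟨h4, h3⟩
      · left; left; right
        have hAup : A up c = false := by
          by_contra hcon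
          apply h4
          refine Finset.mem_sdiff.mpr ⟨(mem_Sc_of_some hgup).mpr ⟨?_, hqc⟩, h2⟩
          cases hv : A up c with
          | true => rfl
          | false => exact absurd hv hcon
        have hqc' : q < c := by
          rcases hqc.lt_or_eq with h | h
          · exact h
          · exfalso
            rw [← h, hgA up q hgup] at hAup
            simp at hAup
        exact ⟨hlt', hqc', hgA r q hgr, hA, hgA up q hgup, hAup⟩
    | false =>
      have hBt : Clo (RepS g w Q ρ) (Cl A g D) r (Cl A g D lo) c := by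
        by_contra hcon
        have h1 : Bm A g w Q ρ D r c = false := by
          cases hv : Bm A g w Q ρ D r c with
          | false => rfl
          | true => exact absurd ((hB c).mp hv) hcon
        rw [hA, h1] at hne
        exact hne rfl
      have hup' := hcloup c hBt
      by_cases h4 : c ∈ Cl A g D lo
      · left; right
        obtain ⟨h5, _⟩ := (mem_Sc_of_some hglo).mp (Finset.mem_sdiff.mp h4).1
        have hqc := ((mem_Sc_of_some hglo).mp (Finset.mem_sdiff.mp h4).1).2
        have hqc' : q < c := by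
          rcases hqc.lt_or_eq with h | h
          · exact h
          · exfalso
            rw [← h, hgA r q hgr] at hA
            simp at hA
        exact ⟨hlt, hqc', hgA lo q hglo, h5, hgA r q hgr, hA⟩
      · right
        exact ⟨hup', h4⟩
  have h1 := Finset.card_le_card hsub
  have h2 := Finset.card_union_le ((((Sr A r).filter (fun c => c < q)) ∪ D ∪
    (univ.filter (fun c => Gam A r up q c))) ∪ (univ.filter (fun c => Gam A lo r q c)))
    (Cl A g D up \ Cl A g D lo)
  have h3 := Finset.card_union_le (((Sr A r).filter (fun c => c < q)) ∪ D ∪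
    (univ.filter (fun c => Gam A r up q c))) (univ.filter (fun c => Gam A lo r q c))
  have h4 := Finset.card_union_le (((Sr A r).filter (fun c => c < q)) ∪ D)
    (univ.filter (fun c => Gam A r up q c))
  have h5 := Finset.card_union_le ((Sr A r).filter (fun c => c < q)) D
  unfold rowdiff Yc
  omega

end Vale.Agent.Lib.P037.Gamma
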