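import Mathlib

open Finset

namespace Vale.Agent.Lib.P037.Gamma

variable {n : ℕ}

/-- The pattern `[[1,1],[1,0]]` at rows `r < r'` and columns `c < c'`. -/
def Gam (A : Fin n → Fin n → Bool) (r r' c c' : Fin n) : Prop :=
  r < r' ∧ c < c' ∧ A r c = true ∧ A r c' = true ∧ A r' c = true ∧ A r' c' = false

instance (A : Fin n → Fin n → Bool) (r r' c c' : Fin n) : Decidable (Gam A r r' c c') := by
  unfold Gam; infer_instance

/-- The set of ones of a row. -/
def Sr (A : Fin n → Fin n → Bool) (r : Fin n) : Finset (Fin n) := univ.filter (fun c => A r c = true)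

@[simp] theorem mem_Sr {A : Fin n → Fin n → Bool} {r c : Fin n} : c ∈ Sr A r ↔ A r c = true := by
  simp [Sr]

/-- Copies with rows `r, r'` and left column `q`. -/
def Yc (A : Fin n → Fin n → Bool) (q r r' : Fin n) : ℕ :=
  (univ.filter (fun c => Gam A r r' q c)).card

/-- Copies with left column `q`. -/
def Xc (A : Fin n → Fin n → Bool) (q : Fin n) : ℕ := ∑ r, ∑ r', Yc A q r r'

/-- Copies with rows `r, r'`. -/
def Cr (A : Fin n → Fin n → Bool) (r r' : Fin n) : ℕ := ∑ c, Yc A c r r'

/-- Total number of copies. -/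
def NG (A : Fin n → Fin n → Bool) : ℕ := ∑ r, ∑ r', Cr A r r'

theorem NG_eq_sum_Xc (A : Fin n → Fin n → Bool) : NG A = ∑ q, Xc A q := by
  unfold NG Xc Cr
  calc ∑ r, ∑ r', ∑ c, Yc A c r r' = ∑ r, ∑ c, ∑ r', Yc A c r r' :=
        Finset.sum_congr rfl (fun r _ => Finset.sum_comm)
    _ = ∑ q, ∑ r, ∑ r', Yc A q r r' := Finset.sum_comm

/-! Rank in a finite set of `Fin n`. -/

/-- Rank of `r` in `G`: the number of elements of `G` below `r`. -/
def rk (G : Finset (Fin n)) (r : Fin n) : ℕ := (G.filter (fun x => x < r)).card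

theorem rk_lt_of_lt {G : Finset (Fin n)} {x y : Fin n} (hx : x ∈ G) (hxy : x < y) :
    rk G x < rk G y := by
  apply Finset.card_lt_card
  rw [Finset.ssubset_iff_of_subset]
  · exact ⟨x, by simp [hx, hxy], by simp⟩
  · intro z hz
    simp only [mem_filter] at hz ⊢
    exact ⟨hz.1, hz.2.trans hxy⟩

theorem rk_mono {G : Finset (Fin n)} {x y : Fin n} (hxy : x ≤ y) : rk G x ≤ rk G y := by
  apply Finset.card_le_card
  intro z hz
  simp only [mem_filter] at hz ⊢
  exact ⟨hz.1, hz.2.trans_le hxy⟩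

theorem rk_lt_card {G : Finset (Fin n)} {x : Fin n} (hx : x ∈ G) : rk G x < G.card := by
  apply Finset.card_lt_card
  rw [Finset.ssubset_iff_of_subset (Finset.filter_subset _ _)]
  exact ⟨x, hx, by simp⟩

theorem rk_injOn (G : Finset (Fin n)) : Set.InjOn (rk G) (G : Set (Fin n)) := by
  intro x hx y hy hxy
  rcases lt_trichotomy x y with h | h | h
  · exact absurd hxy (rk_lt_of_lt hx h).ne
  · exact h
  · exact absurd hxy.symm (rk_lt_of_lt hy h).ne

theorem image_rk (G : Finset (Fin n)) : G.image (rk G) = range G.card := by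
  apply Finset.eq_of_subset_of_card_le
  · intro v hv
    obtain ⟨x, hx, rfl⟩ := Finset.mem_image.mp hv
    exact Finset.mem_range.mpr (rk_lt_card hx)
  · rw [Finset.card_range, Finset.card_image_of_injOn (rk_injOn G)]

theorem card_rk_block (G : Finset (Fin n)) {a b : ℕ} (hb : b ≤ G.card) :
    (G.filter (fun r => a ≤ rk G r ∧ rk G r < b)).card = b - a := by
  have h1 : (G.filter (fun r => a ≤ rk G r ∧ rk G r < b)).image (rk G) = Finset.Ico a b := by
    ext v
    simp only [mem_image, mem_filter, mem_Ico]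
    constructor
    · rintro ⟨x, ⟨_, h2, h3⟩, rfl⟩
      exact ⟨h2, h3⟩
    · rintro ⟨h2, h3⟩
      have hv : v ∈ G.image (rk G) := by
        rw [image_rk]
        exact Finset.mem_range.mpr (by omega)
      obtain ⟨x, hx, rfl⟩ := Finset.mem_image.mp hv
      exact ⟨x, ⟨hx, h2, h3⟩, rfl⟩
  have h2 := Finset.card_image_of_injOn
    (f := rk G) (s := G.filter (fun r => a ≤ rk G r ∧ rk G r < b))
    (fun x hx y hy hxy => rk_injOn G (Finset.mem_of_mem_filter x hx)
      (Finset.mem_of_mem_filter y hy) hxy)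
  rw [← h2, h1, Nat.card_Ico]

theorem card_rk_le (G : Finset (Fin n)) {a b : ℕ} :
    (G.filter (fun r => a ≤ rk G r ∧ rk G r < b)).card ≤ b - a := by
  have h1 : (G.filter (fun r => a ≤ rk G r ∧ rk G r < b)).image (rk G) ⊆ Finset.Ico a b := by
    intro v hv
    obtain ⟨x, hx, rfl⟩ := Finset.mem_image.mp hv
    have := (Finset.mem_filter.mp hx).2
    exact Finset.mem_Ico.mpr this
  have h2 := Finset.card_image_of_injOn
    (f := rk G) (s := G.filter (fun r => a ≤ rk G r ∧ rk G r < b))
    (fun x hx y hy hxy => rk_injOn G (Finset.mem_of_mem_filter x hx)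
      (Finset.mem_of_mem_filter y hy) hxy)
  rw [← h2]
  calc _ ≤ (Finset.Ico a b).card := Finset.card_le_card h1
    _ = b - a := Nat.card_Ico a b

end Vale.Agent.Lib.P037.Gamma
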