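import Vale.Agent.Lib.P037.Gamma.Defs

open Finset

namespace Vale.Agent.Lib.P037.Gamma

variable {n : ℕ}

/-- Greedy hitting set. -/
theorem hitting (H : Fin n → Finset (Fin n)) (h t s : ℕ) (hs : 0 < s) (hsz : s * n ≤ (t + 1) * h) :
    ∀ R : Finset (Fin n), (∀ r ∈ R, (H r).card = h) →
      ∃ Q : Finset (Fin n), (∀ q ∈ Q, ∃ r ∈ R, q ∈ H r) ∧ Q.card * s ≤ R.card ∧
        (R.filter (fun r => Disjoint (H r) Q)).card ≤ t := by
  intro R
  induction R using Finset.strongInduction with
  | H R ih =>
    intro hR
    by_cases hsmall : R.card ≤ t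
    · refine ⟨∅, by simp, by simp, ?_⟩
      exact (Finset.card_filter_le _ _).trans hsmall
    · push Not at hsmall
      -- some column hits at least `s` rows
      have hsum : ∑ c : Fin n, (R.filter (fun r => c ∈ H r)).card = R.card * h := by
        have h1 : ∑ c : Fin n, (R.filter (fun r => c ∈ H r)).card = ∑ r ∈ R, (H r).card := by
          simp_rw [Finset.card_filter]
          rw [Finset.sum_comm]
          apply Finset.sum_congr rfl
          intro r _
          simp
        rw [h1, Finset.sum_congr rfl hR]
        simp
      have hex : ∃ c : Fin n, s ≤ (R.filter (fun r => c ∈ H r)).card := by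
        by_contra hcon
        push Not at hcon
        have hn : 0 < n := by
          by_contra hn0
          have hn0' : n = 0 := by omega
          subst hn0'
          have : R = ∅ := Finset.eq_empty_of_isEmpty R
          rw [this] at hsmall
          simp at hsmall
        have h2 : ∑ c : Fin n, (R.filter (fun r => c ∈ H r)).card < ∑ _c : Fin n, s := by
          apply Finset.sum_lt_sum_of_nonempty
          · exact ⟨⟨0, hn⟩, mem_univ _⟩
          · intro c _
            exact hcon c
        rw [hsum] at h2
        simp only [Finset.sum_const, Finset.card_univ, Fintype.card_fin, smul_eq_mul] at h2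
        have h3 : (t + 1) * h ≤ R.card * h := Nat.mul_le_mul_right _ hsmall
        have h4 : s * n = n * s := Nat.mul_comm _ _
        omega
      obtain ⟨c, hc⟩ := hex
      set Rc := R.filter (fun r => c ∈ H r) with hRc
      set R' := R \ Rc with hR'
      have hsub : R' ⊂ R := by
        rw [hR']
        apply Finset.sdiff_ssubset (Finset.filter_subset _ _)
        rw [← Finset.card_pos]
        exact lt_of_lt_of_le hs hc
      obtain ⟨Q', hQ1, hQ2, hQ3⟩ := ih R' hsub (fun r hr => hR r (Finset.sdiff_subset hr))
      have hcardR' : R'.card + Rc.card = R.card := by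
        rw [hR']
        exact Finset.card_sdiff_add_card_eq_card (Finset.filter_subset _ _)
      refine ⟨insert c Q', ?_, ?_, ?_⟩
      · intro q hq
        rcases Finset.mem_insert.mp hq with rfl | hq'
        · have : Rc.Nonempty := by
            rw [← Finset.card_pos]
            omega
          obtain ⟨r, hr⟩ := this
          exact ⟨r, (Finset.mem_filter.mp hr).1, (Finset.mem_filter.mp hr).2⟩
        · obtain ⟨r, hr, hqr⟩ := hQ1 q hq'
          exact ⟨r, Finset.sdiff_subset hr, hqr⟩
      · have h5 : (insert c Q').card ≤ Q'.card + 1 := Finset.card_insert_le _ _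
        calc (insert c Q').card * s ≤ (Q'.card + 1) * s := Nat.mul_le_mul_right _ h5
          _ = Q'.card * s + s := by ring
          _ ≤ R'.card + Rc.card := by omega
          _ = R.card := hcardR'
      · refine le_trans (Finset.card_le_card ?_) hQ3
        intro r hr
        simp only [mem_filter] at hr ⊢
        rw [Finset.disjoint_insert_right] at hr
        refine ⟨?_, hr.2.2⟩
        rw [hR']
        refine Finset.mem_sdiff.mpr ⟨hr.1, ?_⟩
        intro hrc
        exact hr.2.1 (Finset.mem_filter.mp hrc).2

/-- Outcome of the column selection. -/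
theorem groups_exist (A : Fin n → Fin n → Bool) (h t s Λ : ℕ) (hs : 0 < s)
    (hsz : s * n ≤ (t + 1) * h) (hheavy : NG A < h * (Λ + 1)) :
    ∃ (Q : Finset (Fin n)) (g : Fin n → Option (Fin n)), (∀ q ∈ Q, Xc A q ≤ Λ) ∧
      Q.card * s ≤ n ∧
      (∀ r q, g r = some q → q ∈ Q ∧ A r q = true ∧ ((Sr A r).filter (fun c => c < q)).card ≤ 2 * h) ∧
      ∑ r ∈ univ.filter (fun r => g r = none), (Sr A r).card ≤ n * (2 * h) + t * n := by
  classical
  set Hv : Finset (Fin n) := univ.filter (fun c => Λ < Xc A c) with hHv
  have hHvcard : Hv.card < h := by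
    have h1 : Hv.card * (Λ + 1) ≤ NG A := by
      rw [NG_eq_sum_Xc]
      calc Hv.card * (Λ + 1) = ∑ _c ∈ Hv, (Λ + 1) := by simp
        _ ≤ ∑ c ∈ Hv, Xc A c := by
            apply Finset.sum_le_sum
            intro c hc
            exact (Finset.mem_filter.mp hc).2
        _ ≤ ∑ c, Xc A c := Finset.sum_le_sum_of_subset (Finset.subset_univ _)
    have h2 : Hv.card * (Λ + 1) < h * (Λ + 1) := by omega
    exact Nat.lt_of_mul_lt_mul_right h2
  set Lr : Fin n → Finset (Fin n) := fun r => Sr A r \ Hv with hLr
  set H : Fin n → Finset (Fin n) := fun r => (Lr r).filter (fun c => rk (Lr r) c < h) with hH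
  set R : Finset (Fin n) := univ.filter (fun r => h ≤ (Lr r).card) with hR
  have hHcard : ∀ r ∈ R, (H r).card = h := by
    intro r hr
    have hr' := (Finset.mem_filter.mp hr).2
    have h1 := card_rk_block (a := 0) (Lr r) hr'
    simp only [Nat.zero_le, true_and, Nat.sub_zero] at h1
    exact h1
  obtain ⟨Q, hQ1, hQ2, hQ3⟩ := hitting H h t s hs hsz R hHcard
  -- the group
  have hgdef : ∀ r : Fin n, ∃ o : Option (Fin n),
      (∀ q, o = some q → q ∈ Q ∧ A r q = true ∧
        ((Sr A r).filter (fun c => c < q)).card ≤ 2 * h) ∧
      (o = none → (Sr A r).card ≤ 2 * h ∨ r ∈ R.filter (fun r => Disjoint (H r) Q)) := by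
    intro r
    by_cases hr : r ∈ R
    · by_cases hd : Disjoint (H r) Q
      · refine ⟨none, by simp, fun _ => Or.inr ?_⟩
        exact Finset.mem_filter.mpr ⟨hr, hd⟩
      · rw [Finset.not_disjoint_iff] at hd
        obtain ⟨e, he1, he2⟩ := hd
        have heL : e ∈ Lr r := (Finset.mem_filter.mp he1).1
        have heS : e ∈ Sr A r := (Finset.mem_sdiff.mp heL).1
        have hne : (Sr A r ∩ Q).Nonempty := ⟨e, Finset.mem_inter.mpr ⟨heS, he2⟩⟩
        set q := (Sr A r ∩ Q).min' hne with hq
        have hqmem := Finset.min'_mem _ hne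
        rw [← hq] at hqmem
        have hqe : q ≤ e := Finset.min'_le _ _ (Finset.mem_inter.mpr ⟨heS, he2⟩)
        refine ⟨some q, ?_, by simp⟩
        intro q' hq'
        have hqq : q' = q := (Option.some.inj hq').symm
        rw [hqq]
        refine ⟨(Finset.mem_inter.mp hqmem).2, mem_Sr.mp (Finset.mem_inter.mp hqmem).1, ?_⟩
        have hsub : (Sr A r).filter (fun c => c < q) ⊆ ((Lr r).filter (fun c => c < e)) ∪ Hv := by
          intro c hc
          have hc' := Finset.mem_filter.mp hc
          by_cases hcH : c ∈ Hv
          · exact Finset.mem_union_right _ hcH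
          · apply Finset.mem_union_left
            exact Finset.mem_filter.mpr
              ⟨Finset.mem_sdiff.mpr ⟨hc'.1, hcH⟩, lt_of_lt_of_le hc'.2 hqe⟩
        have h3 : ((Lr r).filter (fun c => c < e)).card < h := (Finset.mem_filter.mp he1).2
        have h4 := (Finset.card_le_card hsub).trans (Finset.card_union_le _ _)
        omega
    · refine ⟨none, by simp, fun _ => Or.inl ?_⟩
      have hlt : (Lr r).card < h := by
        by_contra hcon
        push Not at hcon
        exact hr (Finset.mem_filter.mpr ⟨mem_univ _, hcon⟩)
      have hsub : Sr A r ⊆ Lr r ∪ Hv := by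
        intro c hc
        by_cases hcH : c ∈ Hv
        · exact Finset.mem_union_right _ hcH
        · exact Finset.mem_union_left _ (Finset.mem_sdiff.mpr ⟨hc, hcH⟩)
      have h4 := (Finset.card_le_card hsub).trans (Finset.card_union_le _ _)
      omega
  choose g hg1 hg2 using hgdef
  refine ⟨Q, g, ?_, ?_, hg1, ?_⟩
  · intro q hq
    obtain ⟨r, _, hqr⟩ := hQ1 q hq
    have h1 : q ∈ Lr r := (Finset.mem_filter.mp hqr).1
    have h2 : q ∉ Hv := (Finset.mem_sdiff.mp h1).2
    by_contra hcon
    push Not at hcon
    exact h2 (Finset.mem_filter.mpr ⟨mem_univ _, hcon⟩)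
  · have : R.card ≤ n := by
      calc R.card ≤ (univ : Finset (Fin n)).card := Finset.card_le_card (Finset.subset_univ _)
        _ = n := by simp
    omega
  · -- the cost of the rows without a group
    have h1 : ∀ r ∈ univ.filter (fun r => g r = none), (Sr A r).card ≤
        2 * h + (if r ∈ R.filter (fun r => Disjoint (H r) Q) then n else 0) := by
      intro r hr
      have hr' := (Finset.mem_filter.mp hr).2
      rcases hg2 r hr' with h2 | h2
      · omega
      · rw [if_pos h2]
        have : (Sr A r).card ≤ n := by
          calc (Sr A r).card ≤ (univ : Finset (Fin n)).card :=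
                Finset.card_le_card (Finset.subset_univ _)
            _ = n := by simp
        omega
    calc ∑ r ∈ univ.filter (fun r => g r = none), (Sr A r).card
        ≤ ∑ r ∈ univ.filter (fun r => g r = none),
          (2 * h + (if r ∈ R.filter (fun r => Disjoint (H r) Q) then n else 0)) :=
          Finset.sum_le_sum h1
      _ ≤ ∑ r : Fin n, (2 * h + (if r ∈ R.filter (fun r => Disjoint (H r) Q) then n else 0)) :=
          Finset.sum_le_sum_of_subset (Finset.subset_univ _)
      _ = n * (2 * h) + (R.filter (fun r => Disjoint (H r) Q)).card * n := by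
          rw [Finset.sum_add_distrib]
          simp only [Finset.sum_const, Finset.card_univ, Fintype.card_fin, smul_eq_mul]
          congr 1
          rw [Finset.sum_ite_mem]
          simp
      _ ≤ n * (2 * h) + t * n := by
          have := Nat.mul_le_mul_right n hQ3
          omega

end Vale.Agent.Lib.P037.Gamma
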