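import Vale.Agent.Lib.P037.Gamma.Struct

open Finset

namespace Vale.Agent.Lib.P037.Gamma

variable {n : ℕ}

section real

variable {x k w h Λ N F s : ℝ}

/-- Bound for the potential. -/
theorem F_bound (hk : 100 ≤ k) (hx : 0 < x) (hw : x / (2 * k ^ 4) ≤ w) (hΛ : Λ ≤ 2 * k * N / x)
    (hΛ0 : 0 ≤ Λ) (hN0 : 0 ≤ N) (hN : N * k ^ 40 < x ^ 4) :
    (1 / w) * (2 * ((8 * k ^ 2) * Λ)) + (1 / (w * w)) * N ≤ 5 * x ^ 2 / k ^ 32 := by
  have hk0 : 0 < k := by linarith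
  have hw0 : 0 < w := lt_of_lt_of_le (by positivity) hw
  have h1w : 1 / w ≤ 2 * k ^ 4 / x := by
    rw [div_le_div_iff₀ hw0 hx]
    rw [div_le_iff₀ (by positivity)] at hw
    linarith
  have h1w0 : 0 ≤ 1 / w := by positivity
  have hA : (1 / w) * (2 * ((8 * k ^ 2) * Λ)) ≤ (2 * k ^ 4 / x) * (2 * ((8 * k ^ 2) * (2 * k * N / x))) := by
    apply mul_le_mul h1w _ (by positivity) (by positivity)
    have : (8 * k ^ 2) * Λ ≤ (8 * k ^ 2) * (2 * k * N / x) :=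
      mul_le_mul_of_nonneg_left hΛ (by positivity)
    linarith
  have hB : (1 / (w * w)) * N ≤ (2 * k ^ 4 / x) * (2 * k ^ 4 / x) * N := by
    apply mul_le_mul_of_nonneg_right _ hN0
    have e : 1 / (w * w) = (1 / w) * (1 / w) := by field_simp
    rw [e]
    exact mul_le_mul h1w h1w h1w0 (by positivity)
  have hC : (2 * k ^ 4 / x) * (2 * ((8 * k ^ 2) * (2 * k * N / x))) +
      (2 * k ^ 4 / x) * (2 * k ^ 4 / x) * N = (64 * k ^ 7 + 4 * k ^ 8) * N / x ^ 2 := by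
    field_simp
    ring
  have hD : (64 * k ^ 7 + 4 * k ^ 8) ≤ 5 * k ^ 8 := by
    have : k ^ 8 = k ^ 7 * k := by ring
    have h7 : 0 < k ^ 7 := by positivity
    nlinarith
  have hE : (64 * k ^ 7 + 4 * k ^ 8) * N / x ^ 2 ≤ 5 * k ^ 8 * N / x ^ 2 := by
    apply div_le_div_of_nonneg_right _ (by positivity)
    exact mul_le_mul_of_nonneg_right hD hN0
  have hG : 5 * k ^ 8 * N / x ^ 2 ≤ 5 * x ^ 2 / k ^ 32 := by
    rw [div_le_div_iff₀ (by positivity) (by positivity)]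
    have e1 : 5 * k ^ 8 * N * k ^ 32 = 5 * (N * k ^ 40) := by ring
    have e2 : 5 * x ^ 2 * x ^ 2 = 5 * x ^ 4 := by ring
    rw [e1, e2]
    linarith
  linarith

theorem k_pow_big (hk : (100 : ℝ) ≤ k) {j : ℕ} (hj : 3 ≤ j) : (1000000 : ℝ) ≤ k ^ j := by
  have h1 : (100 : ℝ) ^ 3 ≤ k ^ 3 := pow_le_pow_left₀ (by norm_num) hk 3
  have h2 : k ^ 3 ≤ k ^ j := pow_le_pow_right₀ (by linarith) hj
  have h3 : (100 : ℝ) ^ 3 = 1000000 := by norm_num
  linarith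

theorem one_div_k_pow (hk : (100 : ℝ) ≤ k) {j : ℕ} (hj : 3 ≤ j) : 1 / k ^ j ≤ 1 / 1000000 :=
  one_div_le_one_div_of_le (by norm_num) (k_pow_big hk hj)

/-- Bound for the total cost. -/
theorem cost_bound (hk : 100 ≤ k) (hx : k ^ 10 ≤ x) (hh : h ≤ x / k) (hw0 : 0 < w)
    (hw1 : w ≤ x / k ^ 4) (hw2 : x / (2 * k ^ 4) ≤ w) (hF0 : 0 ≤ F) (hF : F ≤ 5 * x ^ 2 / k ^ 32)
    (hs0 : 0 ≤ s) (hs : s ≤ 3 * x / k ^ 16 + 1) :
    (x * (2 * h) + h * x) + (8 * k ^ 2) * (6 * w * x) +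
        x * (2 * h + (2 * F / w + (x / w) * (x / w) * (2 * s))) +
        2 * F + (8 * k ^ 2) * (2 * w * (2 * x)) ≤ 7 * (x * x) / k := by
  have hk0 : 0 < k := by linarith
  have hx0 : 0 < x := lt_of_lt_of_le (by positivity) hx
  set u := x * x / k with hu
  have hu0 : 0 < u := by positivity
  have hoverk : 1 / k ≤ 1 / 100 := by
    apply one_div_le_one_div_of_le (by norm_num) hk
  -- first terms
  have t1 : x * h ≤ u := by
    have := mul_le_mul_of_nonneg_left hh hx0.le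
    have e : x * (x / k) = u := by rw [hu]; ring
    linarith
  -- the terms with `w`
  have t2 : (8 * k ^ 2) * (w * x) ≤ 8 * (u * (1 / k)) := by
    have h1 : w * x ≤ (x / k ^ 4) * x := mul_le_mul_of_nonneg_right hw1 hx0.le
    have h2 : (8 * k ^ 2) * (w * x) ≤ (8 * k ^ 2) * ((x / k ^ 4) * x) :=
      mul_le_mul_of_nonneg_left h1 (by positivity)
    have e : (8 * k ^ 2) * ((x / k ^ 4) * x) = 8 * (u * (1 / k)) := by
      rw [hu]
      field_simp
    linarith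
  have huk : u * (1 / k) ≤ u * (1 / 100) := mul_le_mul_of_nonneg_left hoverk hu0.le
  have h1w : 1 / w ≤ 2 * k ^ 4 / x := by
    rw [div_le_div_iff₀ hw0 hx0]
    rw [div_le_iff₀ (by positivity)] at hw2
    linarith
  have hxw : x / w ≤ 2 * k ^ 4 := by
    rw [div_le_iff₀ hw0]
    rw [div_le_iff₀ (by positivity)] at hw2
    linarith
  have hxw0 : 0 ≤ x / w := by positivity
  -- the term with `F / w`
  have t3 : x * (2 * F / w) ≤ u * (1 / 100) := by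
    have h1 : x * (2 * F / w) = 2 * x * F * (1 / w) := by ring
    have h2 : 2 * x * F * (1 / w) ≤ 2 * x * (5 * x ^ 2 / k ^ 32) * (2 * k ^ 4 / x) := by
      apply mul_le_mul _ h1w (by positivity) (by positivity)
      exact mul_le_mul_of_nonneg_left hF (by positivity)
    have e : 2 * x * (5 * x ^ 2 / k ^ 32) * (2 * k ^ 4 / x) = 20 * (u * (1 / k ^ 27)) := by
      rw [hu]
      field_simp
      ring
    have h3 : 1 / k ^ 27 ≤ 1 / 1000000 := one_div_k_pow hk (by norm_num)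
    have h4 : u * (1 / k ^ 27) ≤ u * (1 / 1000000) :=
      mul_le_mul_of_nonneg_left h3 hu0.le
    rw [h1]
    rw [e] at h2
    linarith
  -- the term with `s`
  have t4 : x * ((x / w) * (x / w) * (2 * s)) ≤ 8 * (x * (k ^ 8 * s)) / 1 := by
    have h1 : (x / w) * (x / w) ≤ (2 * k ^ 4) * (2 * k ^ 4) := mul_le_mul hxw hxw hxw0 (by positivity)
    have h2 : (x / w) * (x / w) * (2 * s) ≤ (2 * k ^ 4) * (2 * k ^ 4) * (2 * s) :=
      mul_le_mul_of_nonneg_right h1 (by positivity)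
    have h3 := mul_le_mul_of_nonneg_left h2 hx0.le
    have e : x * ((2 * k ^ 4) * (2 * k ^ 4) * (2 * s)) = 8 * (x * (k ^ 8 * s)) / 1 := by ring
    linarith
  have t5 : k ^ 8 * s ≤ 3 * (x / k ^ 8) + k ^ 8 := by
    have h1 : k ^ 8 * s ≤ k ^ 8 * (3 * x / k ^ 16 + 1) := mul_le_mul_of_nonneg_left hs (by positivity)
    have e : k ^ 8 * (3 * x / k ^ 16 + 1) = 3 * (x / k ^ 8) + k ^ 8 := by
      field_simp
    linarith
  have t6 : x * (k ^ 8 * s) ≤ u * (1 / 50) := by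
    have h1 := mul_le_mul_of_nonneg_left t5 hx0.le
    have e1 : x * (x / k ^ 8) = u * (1 / k ^ 7) := by
      rw [hu]
      field_simp
    have h7 : 1 / k ^ 7 ≤ 1 / 1000000 := one_div_k_pow hk (by norm_num)
    have h8 : u * (1 / k ^ 7) ≤ u * (1 / 1000000) := mul_le_mul_of_nonneg_left h7 hu0.le
    have h9 : x * k ^ 8 ≤ u * (1 / k) := by
      have : x * k ^ 8 ≤ x * (x / k ^ 2) := by
        apply mul_le_mul_of_nonneg_left _ hx0.le
        rw [le_div_iff₀ (by positivity)]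
        calc k ^ 8 * k ^ 2 = k ^ 10 := by ring
          _ ≤ x := hx
      have e : x * (x / k ^ 2) = u * (1 / k) := by
        rw [hu]
        field_simp
      linarith
    have h10 : x * (3 * (x / k ^ 8) + k ^ 8) = 3 * (x * (x / k ^ 8)) + x * k ^ 8 := by ring
    rw [h10, e1] at h1
    linarith
  -- the term with `F`
  have t7 : F ≤ u * (1 / 100) := by
    have e : 5 * x ^ 2 / k ^ 32 = 5 * (u * (1 / k ^ 31)) := by
      rw [hu]
      field_simp
    have h7 : 1 / k ^ 31 ≤ 1 / 1000000 := one_div_k_pow hk (by norm_num)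
    have h8 : u * (1 / k ^ 31) ≤ u * (1 / 1000000) := mul_le_mul_of_nonneg_left h7 hu0.le
    rw [e] at hF
    linarith
  have e0 : 7 * (x * x) / k = 7 * u := by rw [hu]; ring
  rw [e0]
  have hh1 : (x * (2 * h) + h * x) = 3 * (x * h) := by ring
  have hh2 : (8 * k ^ 2) * (6 * w * x) = 6 * ((8 * k ^ 2) * (w * x)) := by ring
  have hh3 : x * (2 * h + (2 * F / w + (x / w) * (x / w) * (2 * s))) =
      2 * (x * h) + x * (2 * F / w) + x * ((x / w) * (x / w) * (2 * s)) := by ring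
  have hh4 : (8 * k ^ 2) * (2 * w * (2 * x)) = 4 * ((8 * k ^ 2) * (w * x)) := by ring
  rw [hh1, hh2, hh3, hh4]
  linarith

end real

/-- The main removal statement for the pattern. -/
theorem gamma_param (hn : 0 < n) (A : Fin n → Fin n → Bool) (K : ℕ) (hK : 100 ≤ K)
    (hN1 : 1 ≤ NG A) (hN : (NG A : ℝ) * (K : ℝ) ^ 40 < (n : ℝ) ^ 4) :
    ∃ B : Fin n → Fin n → Bool, (∀ r r' c c', ¬ Gam B r r' c c') ∧
      (∑ r, (rowdiff A B r : ℝ)) ≤ 7 * ((n : ℝ) * n) / K := by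
  have hK0 : 0 < K := by omega
  have hkR : (100 : ℝ) ≤ (K : ℝ) := by exact_mod_cast hK
  have hk0R : (0 : ℝ) < (K : ℝ) := by linarith
  have hxR : (0 : ℝ) < (n : ℝ) := by exact_mod_cast hn
  have hN1R : (1 : ℝ) ≤ (NG A : ℝ) := by exact_mod_cast hN1
  -- size of `n`
  have hx10R : (K : ℝ) ^ 10 ≤ (n : ℝ) := by
    have h1 : ((K : ℝ) ^ 10) ^ 4 < (n : ℝ) ^ 4 := by
      have e : ((K : ℝ) ^ 10) ^ 4 = (K : ℝ) ^ 40 := by ring
      rw [e]
      have h40 : (0 : ℝ) < (K : ℝ) ^ 40 := by positivity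
      nlinarith
    have h2 := lt_of_pow_lt_pow_left₀ 4 hxR.le h1
    exact h2.le
  have hx10 : K ^ 10 ≤ n := by exact_mod_cast hx10R
  set h := n / K with hh_def
  set s₀ := h / (2 * K) with hs₀_def
  set w := n / K ^ 4 with hw_def
  set m := 8 * K ^ 2 with hm_def
  set Λ := NG A / h with hΛ_def
  have hmul1 : K * h ≤ n := Nat.mul_div_le n K
  have hmul2 : n < K * (h + 1) := Nat.lt_mul_div_succ n hK0
  have h2K : 2 * K ≤ h := by
    rw [hh_def, Nat.le_div_iff_mul_le hK0]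
    have h8 : 2 ≤ K ^ 8 := by
      calc 2 ≤ K := by omega
        _ = K ^ 1 := (pow_one K).symm
        _ ≤ K ^ 8 := Nat.pow_le_pow_right hK0 (by norm_num)
    calc 2 * K * K ≤ K ^ 8 * K * K := by
          apply Nat.mul_le_mul_right
          apply Nat.mul_le_mul_right
          exact h8
      _ = K ^ 10 := by ring
      _ ≤ n := hx10
  have hh0 : 0 < h := by omega
  have hs₀0 : 0 < s₀ := Nat.div_pos h2K (by omega)
  have hs1 : 2 * K * s₀ ≤ h := Nat.mul_div_le h (2 * K)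
  have hs2 : h < 2 * K * (s₀ + 1) := Nat.lt_mul_div_succ h (by omega)
  have hw0 : 0 < w := by
    apply Nat.div_pos _ (by positivity)
    calc K ^ 4 ≤ K ^ 10 := Nat.pow_le_pow_right hK0 (by norm_num)
      _ ≤ n := hx10
  have hw1 : K ^ 4 * w ≤ n := Nat.mul_div_le n (K ^ 4)
  have hw2 : n < K ^ 4 * (w + 1) := Nat.lt_mul_div_succ n (by positivity)
  -- the hypotheses of the structure theorem
  have hsz : s₀ * n ≤ (h + 1) * h := by
    have hh1 : K * s₀ ≤ h := by nlinarith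
    calc s₀ * n ≤ s₀ * (K * (h + 1)) := Nat.mul_le_mul_left _ hmul2.le
      _ = (K * s₀) * (h + 1) := by ring
      _ ≤ h * (h + 1) := Nat.mul_le_mul_right _ hh1
      _ = (h + 1) * h := by ring
  have hheavy : NG A < h * (Λ + 1) := Nat.lt_mul_div_succ _ hh0
  have hm1 : n < (m + 1) * s₀ := by
    have h1 : h + 1 ≤ 2 * h := by omega
    have h2 : h < 4 * K * s₀ := by nlinarith
    have h3 : K * (h + 1) ≤ K * (2 * h) := Nat.mul_le_mul_left _ h1
    have h4 : K * (2 * h) < K * (2 * (4 * K * s₀)) := by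
      apply Nat.mul_lt_mul_of_pos_left _ hK0
      omega
    have e : K * (2 * (4 * K * s₀)) = m * s₀ := by rw [hm_def]; ring
    have h5 : m * s₀ ≤ (m + 1) * s₀ := Nat.mul_le_mul_right _ (by omega)
    omega
  -- real forms
  have hhR : (K : ℝ) * h ≤ n := by exact_mod_cast hmul1
  have hhR2 : (n : ℝ) < K * (h + 1) := by exact_mod_cast hmul2
  have hh1R : (1 : ℝ) ≤ (h : ℝ) := by exact_mod_cast hh0
  have hh_le : (h : ℝ) ≤ (n : ℝ) / K := by
    rw [le_div_iff₀ hk0R]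
    linarith
  have hh_ge : (n : ℝ) / (2 * K) ≤ (h : ℝ) := by
    rw [div_le_iff₀ (by positivity)]
    nlinarith
  have hw1R : ((K : ℝ) ^ 4) * w ≤ n := by exact_mod_cast hw1
  have hw2R : (n : ℝ) < ((K : ℝ) ^ 4) * (w + 1) := by exact_mod_cast hw2
  have hw0R : (0 : ℝ) < (w : ℝ) := by exact_mod_cast hw0
  have hw1R' : (1 : ℝ) ≤ (w : ℝ) := by exact_mod_cast hw0
  have hw_le : (w : ℝ) ≤ (n : ℝ) / (K : ℝ) ^ 4 := by
    rw [le_div_iff₀ (by positivity)]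
    linarith
  have hw_ge : (n : ℝ) / (2 * (K : ℝ) ^ 4) ≤ (w : ℝ) := by
    rw [div_le_iff₀ (by positivity)]
    have h4 : (0 : ℝ) < (K : ℝ) ^ 4 := by positivity
    nlinarith
  have hΛ_le : (Λ : ℝ) ≤ 2 * K * (NG A : ℝ) / n := by
    have h1 : (Λ : ℝ) * h ≤ (NG A : ℝ) := by
      have : Λ * h ≤ NG A := Nat.div_mul_le_self _ _
      exact_mod_cast this
    rw [le_div_iff₀ hxR]
    have h2 : (n : ℝ) ≤ 2 * K * h := by
      rw [div_le_iff₀ (by positivity)] at hh_ge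
      linarith
    have hΛ0 : (0 : ℝ) ≤ (Λ : ℝ) := Nat.cast_nonneg _
    calc (Λ : ℝ) * n ≤ (Λ : ℝ) * (2 * K * h) := mul_le_mul_of_nonneg_left h2 hΛ0
      _ = 2 * K * ((Λ : ℝ) * h) := by ring
      _ ≤ 2 * K * (NG A : ℝ) := mul_le_mul_of_nonneg_left h1 (by positivity)
  set F : ℝ := (1 / (w : ℝ)) * (2 * ((8 * (K : ℝ) ^ 2) * Λ)) + (1 / ((w : ℝ) * w)) * (NG A : ℝ)
    with hF_def
  have hFb : F ≤ 5 * (n : ℝ) ^ 2 / (K : ℝ) ^ 32 :=
    F_bound hkR hxR hw_ge hΛ_le (Nat.cast_nonneg _) (Nat.cast_nonneg _) hN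
  have hF0 : 0 ≤ F := by rw [hF_def]; positivity
  set s := ⌈3 * (n : ℝ) / (K : ℝ) ^ 16⌉₊ with hs_def
  have hs_ge : 3 * (n : ℝ) / (K : ℝ) ^ 16 ≤ (s : ℝ) := Nat.le_ceil _
  have hs_le : (s : ℝ) ≤ 3 * (n : ℝ) / (K : ℝ) ^ 16 + 1 :=
    (Nat.ceil_lt_add_one (by positivity)).le
  have hFs : F < ((s + 1 : ℕ) : ℝ) * ((s + 1 : ℕ) : ℝ) := by
    push_cast
    have hp : 0 ≤ 3 * (n : ℝ) / (K : ℝ) ^ 16 := by positivity
    have hsq : (3 * (n : ℝ) / (K : ℝ) ^ 16) * (3 * (n : ℝ) / (K : ℝ) ^ 16) ≤ (s : ℝ) * s :=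
      mul_le_mul hs_ge hs_ge hp (Nat.cast_nonneg _)
    have e : (3 * (n : ℝ) / (K : ℝ) ^ 16) * (3 * (n : ℝ) / (K : ℝ) ^ 16) =
        9 * (n : ℝ) ^ 2 / (K : ℝ) ^ 32 := by
      field_simp
      ring
    have h5 : 5 * (n : ℝ) ^ 2 / (K : ℝ) ^ 32 ≤ 9 * (n : ℝ) ^ 2 / (K : ℝ) ^ 32 := by
      apply div_le_div_of_nonneg_right _ (by positivity)
      have : 0 ≤ (n : ℝ) ^ 2 := by positivity
      linarith
    have hs0 : (0 : ℝ) ≤ (s : ℝ) := Nat.cast_nonneg _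
    nlinarith
  have hmR : (m : ℝ) = 8 * (K : ℝ) ^ 2 := by
    rw [hm_def]; push_cast; ring
  obtain ⟨B, hB, hcost⟩ := struct_main hn hw0 A h h s₀ Λ m s F hs₀0 hsz hheavy hm1
    (by rw [hmR]) hFs
  refine ⟨B, hB, hcost.trans ?_⟩
  rw [hmR]
  exact cost_bound hkR hx10R hh_le hw0R hw_le hw_ge hF0 hFb (Nat.cast_nonneg _) hs_le

end Vale.Agent.Lib.P037.Gamma
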