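import Vale.Agent.Lib.P037.Gamma.Blocks
import Vale.Agent.Lib.P037.Gamma.Choice

open Finset

namespace Vale.Agent.Lib.P037.Gamma

variable {n : ℕ}

/-- The singleton potential of a row: copies with left column the group column of the row, and with
the row as one of the two rows. -/
def Lp (A : Fin n → Fin n → Bool) (g : Fin n → Option (Fin n)) (x : Fin n) : ℕ :=
  match g x with
  | some q => ∑ r, (Yc A q x r + Yc A q r x)
  | none => 0

theorem Lp_eq {A : Fin n → Fin n → Bool} {g : Fin n → Option (Fin n)} {x q : Fin n}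
    (h : g x = some q) : Lp A g x = ∑ r, (Yc A q x r + Yc A q r x) := by
  unfold Lp
  rw [h]

theorem sum_Lp_le (A : Fin n → Fin n → Bool) (g : Fin n → Option (Fin n)) (Q : Finset (Fin n))
    (hgQ : ∀ r q, g r = some q → q ∈ Q) : ∑ x, Lp A g x ≤ 2 * ∑ q ∈ Q, Xc A q := by
  have h1 : ∀ x, Lp A g x ≤ ∑ q ∈ Q, ∑ r, (Yc A q x r + Yc A q r x) := by
    intro x
    unfold Lp
    cases hx : g x with
    | none => exact Nat.zero_le _
    | some q =>
      exact Finset.single_le_sum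
        (f := fun q => ∑ r, (Yc A q x r + Yc A q r x)) (fun _ _ => Nat.zero_le _) (hgQ x q hx)
  calc ∑ x, Lp A g x ≤ ∑ x, ∑ q ∈ Q, ∑ r, (Yc A q x r + Yc A q r x) := Finset.sum_le_sum (fun x _ => h1 x)
    _ = ∑ q ∈ Q, ∑ x, ∑ r, (Yc A q x r + Yc A q r x) := Finset.sum_comm
    _ = 2 * ∑ q ∈ Q, Xc A q := by
      rw [Finset.mul_sum]
      apply Finset.sum_congr rfl
      intro q _
      simp only [Finset.sum_add_distrib]
      have e : ∑ x, ∑ r, Yc A q r x = Xc A q := by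
        unfold Xc
        exact Finset.sum_comm
      rw [e]
      unfold Xc
      ring

variable {g : Fin n → Option (Fin n)} {w : ℕ} {Q : Finset (Fin n)}

theorem Xb_pairwise (hw : 0 < w) (s : Finset (Fin n × ℕ)) :
    (s : Set (Fin n × ℕ)).PairwiseDisjoint (Xb g w) := by
  intro i _ i' _ hne
  exact Xb_disjoint hw hne

/-- Existence of good representatives. -/
theorem reps_exist (hn : 0 < n) (hw : 0 < w) (A : Fin n → Fin n → Bool)
    (hgQ : ∀ r q, g r = some q → q ∈ Q) :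
    ∃ ρ : Fin n × ℕ → Fin n, (∀ i ∈ Idx g w Q, ρ i ∈ Xb g w i) ∧
      ∑ i ∈ Idx g w Q, (Lp A g (ρ i) : ℝ) +
        ∑ p ∈ (Idx g w Q).offDiag, (Cr A (ρ p.1) (ρ p.2) : ℝ) ≤
      (1 / (w : ℝ)) * (2 * ∑ q ∈ Q, (Xc A q : ℝ)) + (1 / ((w : ℝ) * w)) * (NG A : ℝ) := by
  classical
  have : Inhabited (Fin n) := ⟨⟨0, hn⟩⟩
  have hwR : (0 : ℝ) < (w : ℝ) := by exact_mod_cast hw
  set I := Idx g w Q with hI
  have hX : ∀ i ∈ I, (((Xb g w i).card : ℕ) : ℝ) = (w : ℝ) := by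
    rintro ⟨q, j⟩ hi
    have := (mem_Idx.mp hi).2
    rw [card_Xb hw this]
  obtain ⟨ρ, hρ, hle⟩ := avg_choice (fun x y => (Cr A x y : ℝ)) (Xb g w) (w : ℝ) hwR I hX
    (fun x => (Lp A g x : ℝ))
  refine ⟨ρ, hρ, hle.trans ?_⟩
  set U := I.biUnion (Xb g w) with hU
  have hsum1 : ∀ f : Fin n → ℝ, ∑ i ∈ I, ∑ x ∈ Xb g w i, f x = ∑ x ∈ U, f x := by
    intro f
    rw [hU, Finset.sum_biUnion (Xb_pairwise hw I)]
  have hT1 : ∑ i ∈ I, ∑ x ∈ Xb g w i, (Lp A g x : ℝ) ≤ 2 * ∑ q ∈ Q, (Xc A q : ℝ) := by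
    rw [hsum1]
    calc ∑ x ∈ U, (Lp A g x : ℝ) ≤ ∑ x, (Lp A g x : ℝ) :=
          Finset.sum_le_sum_of_subset_of_nonneg (Finset.subset_univ _) (fun _ _ _ => by positivity)
      _ ≤ 2 * ∑ q ∈ Q, (Xc A q : ℝ) := by
          have := sum_Lp_le A g Q hgQ
          exact_mod_cast this
  have hT2 : ∑ p ∈ I.offDiag, ∑ x ∈ Xb g w p.1, ∑ y ∈ Xb g w p.2, (Cr A x y : ℝ) ≤ (NG A : ℝ) := by
    calc ∑ p ∈ I.offDiag, ∑ x ∈ Xb g w p.1, ∑ y ∈ Xb g w p.2, (Cr A x y : ℝ)
        ≤ ∑ p ∈ I ×ˢ I, ∑ x ∈ Xb g w p.1, ∑ y ∈ Xb g w p.2, (Cr A x y : ℝ) := by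
          apply Finset.sum_le_sum_of_subset_of_nonneg
          · intro p hp
            have hp' := Finset.mem_offDiag.mp hp
            exact Finset.mem_product.mpr ⟨hp'.1, hp'.2.1⟩
          · intro _ _ _
            positivity
      _ = ∑ i ∈ I, ∑ x ∈ Xb g w i, ∑ j ∈ I, ∑ y ∈ Xb g w j, (Cr A x y : ℝ) := by
          rw [Finset.sum_product]
          apply Finset.sum_congr rfl
          intro i _
          rw [Finset.sum_comm]
      _ = ∑ x ∈ U, ∑ y ∈ U, (Cr A x y : ℝ) := by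
          rw [hsum1]
          apply Finset.sum_congr rfl
          intro x _
          rw [hsum1]
      _ ≤ ∑ x, ∑ y, (Cr A x y : ℝ) := by
          calc ∑ x ∈ U, ∑ y ∈ U, (Cr A x y : ℝ) ≤ ∑ x ∈ U, ∑ y, (Cr A x y : ℝ) := by
                apply Finset.sum_le_sum
                intro x _
                exact Finset.sum_le_sum_of_subset_of_nonneg (Finset.subset_univ _)
                  (fun _ _ _ => by positivity)
            _ ≤ _ := Finset.sum_le_sum_of_subset_of_nonneg (Finset.subset_univ _)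
                  (fun _ _ _ => by positivity)
      _ = (NG A : ℝ) := by
          unfold NG
          push_cast
          rfl
  have h1 : (0 : ℝ) ≤ 1 / (w : ℝ) := by positivity
  have h2 : (0 : ℝ) ≤ 1 / ((w : ℝ) * w) := by positivity
  exact add_le_add (mul_le_mul_of_nonneg_left hT1 h1) (mul_le_mul_of_nonneg_left hT2 h2)

end Vale.Agent.Lib.P037.Gamma
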