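import Vale.Agent.Lib.P037.Gamma.Sum
import Vale.Agent.Lib.P037.Gamma.Hitting

open Finset

namespace Vale.Agent.Lib.P037.Gamma

variable {n : ℕ}

theorem card_Idx_mul_le {g : Fin n → Option (Fin n)} {w : ℕ} {Q : Finset (Fin n)} (hw : 0 < w) :
    (Idx g w Q).card * w ≤ n := by
  classical
  have h1 : ((Idx g w Q).biUnion (Xb g w)).card = ∑ i ∈ Idx g w Q, (Xb g w i).card :=
    Finset.card_biUnion (fun i _ i' _ hne => Xb_disjoint hw hne)
  have h2 : ∑ i ∈ Idx g w Q, (Xb g w i).card = (Idx g w Q).card * w := by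
    rw [Finset.sum_congr rfl (g := fun _ => w)]
    · simp
    · rintro ⟨q, j⟩ hi
      exact card_Xb hw (mem_Idx.mp hi).2
  have h3 : ((Idx g w Q).biUnion (Xb g w)).card ≤ n := by
    calc _ ≤ (univ : Finset (Fin n)).card := Finset.card_le_card (Finset.subset_univ _)
      _ = n := by simp
  omega

theorem sum_card_Gp_le {g : Fin n → Option (Fin n)} (Q : Finset (Fin n)) :
    ∑ q ∈ Q, (Gp g q).card ≤ n := by
  classical
  have h1 : (Q.biUnion (Gp g)).card = ∑ q ∈ Q, (Gp g q).card := by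
    apply Finset.card_biUnion
    intro q _ q' _ hne
    show Disjoint (Gp g q) (Gp g q')
    rw [Finset.disjoint_left]
    intro r hr hr'
    have e1 := mem_Gp.mp hr
    have e2 := mem_Gp.mp hr'
    rw [e1] at e2
    exact hne (Option.some.inj e2)
  rw [← h1]
  calc _ ≤ (univ : Finset (Fin n)).card := Finset.card_le_card (Finset.subset_univ _)
    _ = n := by simp

variable {A : Fin n → Fin n → Bool} {g : Fin n → Option (Fin n)} {w : ℕ} {Q : Finset (Fin n)}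
  {ρ : Fin n × ℕ → Fin n} {D : Finset (Fin n)}

/-- Summing the rows. -/
theorem total_cost (hw : 0 < w) (hgQ : ∀ r q, g r = some q → q ∈ Q)
    (hgA : ∀ r q, g r = some q → A r q = true) {h : ℕ}
    (hpre : ∀ r q, g r = some q → ((Sr A r).filter (fun c => c < q)).card ≤ 2 * h)
    (hρ : ∀ i ∈ Idx g w Q, ρ i ∈ Xb g w i) (hD : D1 A g w Q ρ ⊆ D)
    (hfam : ∀ x ∈ RepS g w Q ρ, ∀ y ∈ RepS g w Q ρ, x < y → FS (Cl A g D y) (Cl A g D x)) :
    ∑ r, rowdiff A (Bm A g w Q ρ D) r ≤ ∑ r ∈ univ.filter (fun r => g r = none), (Sr A r).card +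
      (n * (2 * h + D.card) + Q.card * (6 * w * n) + 2 * ∑ i ∈ Idx g w Q, Lp A g (ρ i) +
        Q.card * (2 * w * (2 * n))) := by
  classical
  have hpt : ∀ r, rowdiff A (Bm A g w Q ρ D) r ≤
      (if g r = none then (Sr A r).card else 0) +
        ∑ q ∈ Q, (if r ∈ Gp g q then rowdiff A (Bm A g w Q ρ D) r else 0) := by
    intro r
    cases hr : g r with
    | none =>
      simp only [if_true]
      have hk : ∀ q, ¬ Kept g w q r := by
        intro q hq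
        have := hq.1
        rw [hr] at this
        simp at this
      have := rowdiff_not_kept (A := A) (g := g) (w := w) (Q := Q) (ρ := ρ) (D := D) r hk
      omega
    | some q =>
      have hq := hgQ r q hr
      have h1 : rowdiff A (Bm A g w Q ρ D) r =
          (if r ∈ Gp g q then rowdiff A (Bm A g w Q ρ D) r else 0) := by
        rw [if_pos (mem_Gp.mpr hr)]
      have h2 := Finset.single_le_sum
        (f := fun q => if r ∈ Gp g q then rowdiff A (Bm A g w Q ρ D) r else 0)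
        (fun _ _ => Nat.zero_le _) hq
      omega
  have h1 : ∑ r, rowdiff A (Bm A g w Q ρ D) r ≤
      ∑ r, (if g r = none then (Sr A r).card else 0) +
        ∑ q ∈ Q, ∑ r ∈ Gp g q, rowdiff A (Bm A g w Q ρ D) r := by
    calc ∑ r, rowdiff A (Bm A g w Q ρ D) r
        ≤ ∑ r, ((if g r = none then (Sr A r).card else 0) +
          ∑ q ∈ Q, (if r ∈ Gp g q then rowdiff A (Bm A g w Q ρ D) r else 0)) :=
          Finset.sum_le_sum (fun r _ => hpt r)
      _ = _ := by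
          rw [Finset.sum_add_distrib, Finset.sum_comm]
          congr 1
          apply Finset.sum_congr rfl
          intro q _
          rw [← Finset.sum_filter]
          apply Finset.sum_congr _ (fun _ _ => rfl)
          ext r
          simp
  have h2 : ∑ r, (if g r = none then (Sr A r).card else 0) =
      ∑ r ∈ univ.filter (fun r => g r = none), (Sr A r).card := by
    rw [Finset.sum_filter]
  have h3 : ∑ q ∈ Q, ∑ r ∈ Gp g q, rowdiff A (Bm A g w Q ρ D) r ≤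
      ∑ q ∈ Q, ((Gp g q).card * (2 * h + D.card) + 6 * w * n +
      2 * ∑ j ∈ range (JJ g w q), Lp A g (ρ (q, j)) + 2 * w * (2 * n)) :=
    Finset.sum_le_sum (fun q hq => group_cost hw hgQ hgA hpre hρ hD hfam hq)
  have h4 : ∑ q ∈ Q, ((Gp g q).card * (2 * h + D.card) + 6 * w * n +
      2 * ∑ j ∈ range (JJ g w q), Lp A g (ρ (q, j)) + 2 * w * (2 * n)) =
      (∑ q ∈ Q, (Gp g q).card) * (2 * h + D.card) + Q.card * (6 * w * n) +
      2 * ∑ i ∈ Idx g w Q, Lp A g (ρ i) + Q.card * (2 * w * (2 * n)) := by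
    rw [idx_sum (fun i => Lp A g (ρ i))]
    simp only [Finset.sum_add_distrib, Finset.sum_const, smul_eq_mul, Finset.mul_sum,
      Finset.sum_mul]
  have h5 := Nat.mul_le_mul_right (2 * h + D.card) (sum_card_Gp_le (g := g) Q)
  rw [h4] at h3
  rw [h2] at h1
  omega

/-- Existence of the deleted set, given good representatives. -/
theorem deleted_exists (s : ℕ)
    (hCpair : ∀ i ∈ Idx g w Q, ∀ i' ∈ Idx g w Q, i ≠ i' → Cr A (ρ i) (ρ i') < (s + 1) * (s + 1)) :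
    ∃ D : Finset (Fin n), D1 A g w Q ρ ⊆ D ∧
      (∀ x ∈ RepS g w Q ρ, ∀ y ∈ RepS g w Q ρ, x < y → FS (Cl A g D y) (Cl A g D x)) ∧
      D.card ≤ (D1 A g w Q ρ).card + ((Idx g w Q).card * (Idx g w Q).card) * (2 * s) := by
  classical
  have hDd : ∀ x y : Fin n, ∃ D : Finset (Fin n), D.card ≤ 2 * s ∧
      (x < y → Cr A x y < (s + 1) * (s + 1) → ∀ c c', c < c' → c ∉ D → c' ∉ D →
        c ∈ Sc A g x → c ∈ Sc A g y → c' ∈ Sc A g x → c' ∈ Sc A g y) := by
    intro x y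
    by_cases hcond : x < y ∧ Cr A x y < (s + 1) * (s + 1)
    · obtain ⟨D, h1, h2⟩ := pair_clean A g x y s hcond.1 hcond.2
      exact ⟨D, h1, fun _ _ => h2⟩
    · refine ⟨∅, by simp, ?_⟩
      intro h1 h2
      exact absurd ⟨h1, h2⟩ hcond
  choose Dd hDd1 hDd2 using hDd
  set I := Idx g w Q with hI
  set D2 := (I ×ˢ I).biUnion (fun p => Dd (ρ p.1) (ρ p.2)) with hD2
  set D := D1 A g w Q ρ ∪ D2 with hD
  refine ⟨D, Finset.subset_union_left, ?_, ?_⟩
  · intro x hx y hy hxy a ha b hb hab hay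
    obtain ⟨i, hi, rfl⟩ := Finset.mem_image.mp hx
    obtain ⟨i', hi', rfl⟩ := Finset.mem_image.mp hy
    have hne : i ≠ i' := by
      intro h
      rw [h] at hxy
      exact lt_irrefl _ hxy
    obtain ⟨ha1, ha2⟩ := Finset.mem_sdiff.mp ha
    obtain ⟨hb1, hb2⟩ := Finset.mem_sdiff.mp hb
    obtain ⟨hay1, _⟩ := Finset.mem_sdiff.mp hay
    have hsubD : Dd (ρ i) (ρ i') ⊆ D := by
      intro c hc
      apply Finset.mem_union_right
      exact Finset.mem_biUnion.mpr ⟨(i, i'), Finset.mem_product.mpr ⟨hi, hi'⟩, hc⟩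
    have := hDd2 (ρ i) (ρ i') hxy (hCpair i hi i' hi' hne) a b hab
      (fun h => ha2 (hsubD h)) (fun h => hb2 (hsubD h)) ha1 hay1 hb1
    exact Finset.mem_sdiff.mpr ⟨this, hb2⟩
  · have hD2card : D2.card ≤ (I.card * I.card) * (2 * s) := by
      have := Finset.card_biUnion_le_card_mul (I ×ˢ I) (fun p => Dd (ρ p.1) (ρ p.2)) (2 * s)
        (fun p _ => hDd1 _ _)
      rwa [Finset.card_product] at this
    have h1 : D.card ≤ (D1 A g w Q ρ).card + D2.card := Finset.card_union_le _ _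
    omega

theorem single_gen {α : Type*} (s : Finset α) (f : α → ℕ) {a : α} (ha : a ∈ s) :
    (f a : ℝ) ≤ ∑ x ∈ s, (f x : ℝ) := by
  have h := Finset.single_le_sum (s := s) (f := f) (fun _ _ => Nat.zero_le _) ha
  exact_mod_cast h

/-- Real bounds extracted from the potential. -/
theorem rep_bounds {ι : Type*} [DecidableEq ι] {I : Finset ι} {L : ι → ℕ} {f : ι → ι → ℕ}
    {F : ℝ} {s : ℕ}
    (hpot2 : ∑ i ∈ I, (L i : ℝ) + ∑ p ∈ I.offDiag, (f p.1 p.2 : ℝ) ≤ F)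
    (hFs : F < ((s + 1 : ℕ) : ℝ) * ((s + 1 : ℕ) : ℝ)) :
    ∑ i ∈ I, (L i : ℝ) ≤ F ∧ ∀ i ∈ I, ∀ i' ∈ I, i ≠ i' → f i i' < (s + 1) * (s + 1) := by
  have hLnn : (0 : ℝ) ≤ ∑ i ∈ I, (L i : ℝ) := Finset.sum_nonneg (fun _ _ => Nat.cast_nonneg _)
  have hCnn : (0 : ℝ) ≤ ∑ p ∈ I.offDiag, (f p.1 p.2 : ℝ) :=
    Finset.sum_nonneg (fun _ _ => Nat.cast_nonneg _)
  refine ⟨(le_add_of_nonneg_right hCnn).trans hpot2, ?_⟩
  intro i hi i' hi' hne
  have h1 : (f i i' : ℝ) ≤ ∑ p ∈ I.offDiag, (f p.1 p.2 : ℝ) :=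
    single_gen I.offDiag (fun p => f p.1 p.2) (a := (i, i')) (Finset.mem_offDiag.mpr ⟨hi, hi', hne⟩)
  have h2 : (f i i' : ℝ) < ((s + 1 : ℕ) : ℝ) * ((s + 1 : ℕ) : ℝ) :=
    lt_of_le_of_lt (h1.trans ((le_add_of_nonneg_left hLnn).trans hpot2)) hFs
  have h3 : ((f i i' : ℕ) : ℝ) < (((s + 1) * (s + 1) : ℕ) : ℝ) := by
    rw [Nat.cast_mul]
    exact h2
  exact Nat.cast_lt.mp h3

/-- Arithmetic of the final estimate. -/
theorem final_arith {n' h' t' w' m' s' F D' Dc I' L Nn Qc : ℝ} (hn : 0 ≤ n') (hw : 0 < w')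
    (hI0 : 0 ≤ I') (hs0 : 0 ≤ s') (hw0 : 0 ≤ n' / w') (hQm : Qc ≤ m')
    (hIw : I' ≤ n' / w') (hD1 : D' ≤ 2 * F / w')
    (hDc : Dc ≤ D' + I' * I' * (2 * s')) (hL : L ≤ F)
    (hcost : Nn ≤ (n' * (2 * h') + t' * n') + (n' * (2 * h' + Dc) + Qc * (6 * w' * n') + 2 * L +
      Qc * (2 * w' * (2 * n')))) :
    Nn ≤ (n' * (2 * h') + t' * n') + m' * (6 * w' * n') +
        n' * (2 * h' + (2 * F / w' + (n' / w') * (n' / w') * (2 * s'))) + 2 * F +
        m' * (2 * w' * (2 * n')) := by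
  have e1 : Qc * (6 * w' * n') ≤ m' * (6 * w' * n') :=
    mul_le_mul_of_nonneg_right hQm (by positivity)
  have e2 : Qc * (2 * w' * (2 * n')) ≤ m' * (2 * w' * (2 * n')) :=
    mul_le_mul_of_nonneg_right hQm (by positivity)
  have e5 : I' * I' * (2 * s') ≤ (n' / w') * (n' / w') * (2 * s') := by
    apply mul_le_mul_of_nonneg_right _ (by positivity)
    exact mul_le_mul hIw hIw hI0 hw0
  have e3 : n' * (2 * h' + Dc) ≤ n' * (2 * h' + (2 * F / w' + (n' / w') * (n' / w') * (2 * s'))) := by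
    apply mul_le_mul_of_nonneg_left _ hn
    linarith
  linarith

/-- The structural statement: parameters give a pattern-free matrix with explicit cost. -/
theorem struct_main (hn : 0 < n) (hw : 0 < w) (A : Fin n → Fin n → Bool) (h t s₀ Λ m s : ℕ) (F : ℝ)
    (hs₀ : 0 < s₀) (hsz : s₀ * n ≤ (t + 1) * h) (hheavy : NG A < h * (Λ + 1))
    (hm : n < (m + 1) * s₀)
    (hF : (1 / (w : ℝ)) * (2 * ((m : ℝ) * Λ)) + (1 / ((w : ℝ) * w)) * (NG A : ℝ) ≤ F)
    (hFs : F < ((s + 1 : ℕ) : ℝ) * ((s + 1 : ℕ) : ℝ)) :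
    ∃ B : Fin n → Fin n → Bool, (∀ r r' c c', ¬ Gam B r r' c c') ∧
      (∑ r, (rowdiff A B r : ℝ)) ≤ ((n : ℝ) * (2 * h) + t * n) + (m : ℝ) * (6 * w * n) +
        (n : ℝ) * (2 * h + (2 * F / w + ((n : ℝ) / w) * ((n : ℝ) / w) * (2 * s))) +
        2 * F + (m : ℝ) * (2 * w * (2 * n)) := by
  classical
  obtain ⟨Q, g, hQ1, hQ2, hg, hnone⟩ := groups_exist A h t s₀ Λ hs₀ hsz hheavy
  have hgQ : ∀ r q, g r = some q → q ∈ Q := fun r q hr => (hg r q hr).1
  have hgA : ∀ r q, g r = some q → A r q = true := fun r q hr => (hg r q hr).2.1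
  have hpre : ∀ r q, g r = some q → ((Sr A r).filter (fun c => c < q)).card ≤ 2 * h :=
    fun r q hr => (hg r q hr).2.2
  have hQm : Q.card ≤ m := by
    have h1 : Q.card * s₀ < (m + 1) * s₀ := lt_of_le_of_lt hQ2 hm
    have h2 := Nat.lt_of_mul_lt_mul_right h1
    omega
  have hwR : (0 : ℝ) < (w : ℝ) := by exact_mod_cast hw
  obtain ⟨ρ, hρ, hpot⟩ := reps_exist (g := g) (w := w) (Q := Q) hn hw A hgQ
  have hXsum : ∑ q ∈ Q, (Xc A q : ℝ) ≤ (m : ℝ) * Λ := by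
    calc ∑ q ∈ Q, (Xc A q : ℝ) ≤ ∑ _q ∈ Q, (Λ : ℝ) := by
          apply Finset.sum_le_sum
          intro q hq
          exact_mod_cast hQ1 q hq
      _ = (Q.card : ℝ) * Λ := by simp
      _ ≤ (m : ℝ) * Λ := by
          apply mul_le_mul_of_nonneg_right _ (by positivity)
          exact_mod_cast hQm
  have hpot2 : ∑ i ∈ Idx g w Q, (Lp A g (ρ i) : ℝ) +
      ∑ p ∈ (Idx g w Q).offDiag, (Cr A (ρ p.1) (ρ p.2) : ℝ) ≤ F := by
    refine hpot.trans (le_trans ?_ hF)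
    apply add_le_add_left
    apply mul_le_mul_of_nonneg_left _ (by positivity)
    linarith
  obtain ⟨hLF, hCpair⟩ := rep_bounds (I := Idx g w Q) (L := fun i => Lp A g (ρ i))
    (f := fun i i' => Cr A (ρ i) (ρ i')) hpot2 hFs
  obtain ⟨D, hD1sub, hfam, hDcard⟩ := deleted_exists s hCpair
  refine ⟨Bm A g w Q ρ D, Bm_free hw hgQ hρ hfam, ?_⟩
  have hcost := total_cost hw hgQ hgA hpre hρ hD1sub hfam
  have hD1card := card_D1 (A := A) (Q := Q) hw hgA hρ
  have hIw : ((Idx g w Q).card : ℝ) ≤ (n : ℝ) / w := by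
    rw [le_div_iff₀ hwR]
    have := card_Idx_mul_le (g := g) (Q := Q) hw
    exact_mod_cast this
  have hLcast : ((∑ i ∈ Idx g w Q, Lp A g (ρ i) : ℕ) : ℝ) = ∑ i ∈ Idx g w Q, (Lp A g (ρ i) : ℝ) := by
    push_cast
    rfl
  have hD1R : ((D1 A g w Q ρ).card : ℝ) ≤ 2 * F / w := by
    rw [le_div_iff₀ hwR]
    have h1 : ((w * (D1 A g w Q ρ).card : ℕ) : ℝ) ≤ ((2 * ∑ i ∈ Idx g w Q, Lp A g (ρ i) : ℕ) : ℝ) := by
      exact_mod_cast hD1card
    rw [Nat.cast_mul, Nat.cast_mul, hLcast] at h1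
    push_cast at h1
    linarith
  have hDc : (D.card : ℝ) ≤ ((D1 A g w Q ρ).card : ℝ) +
      ((Idx g w Q).card : ℝ) * ((Idx g w Q).card : ℝ) * (2 * (s : ℝ)) := by
    exact_mod_cast hDcard
  have hQR : (Q.card : ℝ) ≤ (m : ℝ) := by exact_mod_cast hQm
  have hc1 : (∑ r, (rowdiff A (Bm A g w Q ρ D) r : ℝ)) ≤
      ((n : ℝ) * (2 * h) + t * n) + ((n : ℝ) * (2 * h + (D.card : ℝ)) + (Q.card : ℝ) * (6 * w * n) +
        2 * ∑ i ∈ Idx g w Q, (Lp A g (ρ i) : ℝ) + (Q.card : ℝ) * (2 * w * (2 * n))) := by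
    have h1 : ((∑ r, rowdiff A (Bm A g w Q ρ D) r : ℕ) : ℝ) ≤
        ((∑ r ∈ univ.filter (fun r => g r = none), (Sr A r).card : ℕ) : ℝ) +
        ((n * (2 * h + D.card) + Q.card * (6 * w * n) + 2 * ∑ i ∈ Idx g w Q, Lp A g (ρ i) +
          Q.card * (2 * w * (2 * n)) : ℕ) : ℝ) := by
      exact_mod_cast hcost
    have h2 : ((∑ r ∈ univ.filter (fun r => g r = none), (Sr A r).card : ℕ) : ℝ) ≤
        (n : ℝ) * (2 * h) + t * n := by exact_mod_cast hnone
    have h3 : ((n * (2 * h + D.card) + Q.card * (6 * w * n) + 2 * ∑ i ∈ Idx g w Q, Lp A g (ρ i) +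
          Q.card * (2 * w * (2 * n)) : ℕ) : ℝ) = (n : ℝ) * (2 * h + (D.card : ℝ)) +
          (Q.card : ℝ) * (6 * w * n) + 2 * ∑ i ∈ Idx g w Q, (Lp A g (ρ i) : ℝ) +
          (Q.card : ℝ) * (2 * w * (2 * n)) := by
      push_cast
      ring
    have h4 : ((∑ r, rowdiff A (Bm A g w Q ρ D) r : ℕ) : ℝ) =
        ∑ r, (rowdiff A (Bm A g w Q ρ D) r : ℝ) := by
      push_cast
      rfl
    rw [h4, h3] at h1
    linarith
  exact final_arith (by positivity) hwR (by positivity) (by positivity)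
    (by positivity) hQR hIw hD1R hDc hLF hc1

end Vale.Agent.Lib.P037.Gamma
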