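import Vale.Agent.Lib.P037.Gamma.Core

open Finset

namespace Vale.Agent.Lib.P037.Gamma

variable {n : ℕ}

theorem telescope_aux (F : ℕ → Finset (Fin n)) (J : ℕ) (hF : ∀ j, j + 1 < J → F j ⊆ F (j + 1)) :
    ∀ m, 1 ≤ m → m < J →
      ∑ j ∈ Finset.Ico 1 m, (F (j + 1) \ F (j - 1)).card + (F 0).card + (F 1).card ≤
        (F m).card + (F (m - 1)).card := by
  intro m hm
  induction m, hm using Nat.le_induction with
  | base =>
    intro _
    simp
    omega
  | succ m hm ih =>
    intro hlt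
    have h1 := ih (by omega)
    rw [Finset.sum_Ico_succ_top hm]
    have hsub : F (m - 1) ⊆ F (m + 1) := by
      have h2 := hF (m - 1) (by omega)
      have e : m - 1 + 1 = m := by omega
      rw [e] at h2
      exact h2.trans (hF m hlt)
    have h3 := Finset.card_sdiff_add_card_eq_card hsub
    simp only [Nat.add_sub_cancel]
    omega

theorem telescope (F : ℕ → Finset (Fin n)) (J : ℕ) (hF : ∀ j, j + 1 < J → F j ⊆ F (j + 1)) :
    ∑ j ∈ Finset.Ico 1 (J - 1), (F (j + 1) \ F (j - 1)).card ≤ 2 * n := by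
  have hcard : ∀ X : Finset (Fin n), X.card ≤ n := by
    intro X
    calc X.card ≤ (univ : Finset (Fin n)).card := Finset.card_le_card (Finset.subset_univ _)
      _ = n := by simp
  by_cases hJ : 2 ≤ J
  · have h1 := telescope_aux F J hF (J - 1) (by omega) (by omega)
    have h2 := hcard (F (J - 1))
    have h3 := hcard (F (J - 1 - 1))
    omega
  · have : Finset.Ico 1 (J - 1) = ∅ := by
      apply Finset.Ico_eq_empty_of_le
      omega
    rw [this]
    simp

variable {A : Fin n → Fin n → Bool} {g : Fin n → Option (Fin n)} {w : ℕ} {Q : Finset (Fin n)}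
  {ρ : Fin n × ℕ → Fin n} {D : Finset (Fin n)}

theorem idx_sum (f : Fin n × ℕ → ℕ) :
    ∑ i ∈ Idx g w Q, f i = ∑ q ∈ Q, ∑ j ∈ range (JJ g w q), f (q, j) := by
  unfold Idx
  rw [Finset.sum_filter, Finset.sum_product]
  apply Finset.sum_congr rfl
  intro q _
  have hJ := JJ_le (g := g) (w := w) q
  rw [← Finset.sum_filter]
  apply Finset.sum_congr _ (fun _ _ => rfl)
  ext j
  simp only [mem_filter, mem_range]
  omega

/-- The kept rows of a group. -/
def KK (g : Fin n → Option (Fin n)) (w : ℕ) (q : Fin n) : Finset (Fin n) :=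
  (Gp g q).filter (fun r => Kept g w q r)

theorem kept_sum_up (hρ : ∀ i ∈ Idx g w Q, ρ i ∈ Xb g w i) {q : Fin n} (hq : q ∈ Q) :
    ∑ r ∈ KK g w q, Yc A q r (ρ (q, jb g w q r + 1)) ≤
      ∑ j ∈ range (JJ g w q), Lp A g (ρ (q, j)) := by
  classical
  have hmaps : ∀ r ∈ KK g w q, jb g w q r + 1 ∈ range (JJ g w q) := by
    intro r hr
    have hk := (Finset.mem_filter.mp hr).2
    exact Finset.mem_range.mpr hk.2.2
  rw [← Finset.sum_fiberwise_of_maps_to hmaps]
  apply Finset.sum_le_sum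
  intro j hj
  have hI : (q, j) ∈ Idx g w Q := mem_Idx.mpr ⟨hq, Finset.mem_range.mp hj⟩
  have hgx : g (ρ (q, j)) = some q := (mem_Xb_rk (hρ _ hI)).1
  rw [Lp_eq hgx, Finset.sum_add_distrib]
  calc ∑ r ∈ (KK g w q).filter (fun r => jb g w q r + 1 = j), Yc A q r (ρ (q, jb g w q r + 1))
      = ∑ r ∈ (KK g w q).filter (fun r => jb g w q r + 1 = j), Yc A q r (ρ (q, j)) := by
        apply Finset.sum_congr rfl
        intro r hr
        rw [(Finset.mem_filter.mp hr).2]
    _ ≤ ∑ r, Yc A q r (ρ (q, j)) := Finset.sum_le_sum_of_subset (Finset.subset_univ _)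
    _ ≤ _ := Nat.le_add_left _ _

theorem kept_sum_lo (hρ : ∀ i ∈ Idx g w Q, ρ i ∈ Xb g w i) {q : Fin n} (hq : q ∈ Q) :
    ∑ r ∈ KK g w q, Yc A q (ρ (q, jb g w q r - 1)) r ≤
      ∑ j ∈ range (JJ g w q), Lp A g (ρ (q, j)) := by
  classical
  have hmaps : ∀ r ∈ KK g w q, jb g w q r - 1 ∈ range (JJ g w q) := by
    intro r hr
    have hk := (Finset.mem_filter.mp hr).2
    have h3 : jb g w q r + 1 < JJ g w q := hk.2.2
    exact Finset.mem_range.mpr (by omega)
  rw [← Finset.sum_fiberwise_of_maps_to hmaps]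
  apply Finset.sum_le_sum
  intro j hj
  have hI : (q, j) ∈ Idx g w Q := mem_Idx.mpr ⟨hq, Finset.mem_range.mp hj⟩
  have hgx : g (ρ (q, j)) = some q := (mem_Xb_rk (hρ _ hI)).1
  rw [Lp_eq hgx, Finset.sum_add_distrib]
  calc ∑ r ∈ (KK g w q).filter (fun r => jb g w q r - 1 = j), Yc A q (ρ (q, jb g w q r - 1)) r
      = ∑ r ∈ (KK g w q).filter (fun r => jb g w q r - 1 = j), Yc A q (ρ (q, j)) r := by
        apply Finset.sum_congr rfl
        intro r hr
        rw [(Finset.mem_filter.mp hr).2]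
    _ ≤ ∑ r, Yc A q (ρ (q, j)) r := Finset.sum_le_sum_of_subset (Finset.subset_univ _)
    _ ≤ _ := Nat.le_add_right _ _

theorem kept_sum_gap (hw : 0 < w) (hD : D1 A g w Q ρ ⊆ D) {q : Fin n} (hq : q ∈ Q) :
    ∑ r ∈ KK g w q, (Cl A g D (ρ (q, jb g w q r + 1)) \ Cl A g D (ρ (q, jb g w q r - 1))).card ≤
      2 * w * (2 * n) := by
  classical
  set J := JJ g w q with hJ
  have hmaps : ∀ r ∈ KK g w q, jb g w q r ∈ Finset.Ico 1 (J - 1) := by
    intro r hr
    have hk := (Finset.mem_filter.mp hr).2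
    have h2 : 1 ≤ jb g w q r := hk.2.1
    have h3 : jb g w q r + 1 < J := hk.2.2
    exact Finset.mem_Ico.mpr ⟨h2, by omega⟩
  rw [← Finset.sum_fiberwise_of_maps_to hmaps]
  set F : ℕ → Finset (Fin n) := fun j => Cl A g D (ρ (q, j)) with hF
  have hnest : ∀ j, j + 1 < J → F j ⊆ F (j + 1) := by
    intro j hj
    exact cl_nest hD (mem_Idx.mpr ⟨hq, by omega⟩) (mem_Idx.mpr ⟨hq, hj⟩)
  have htel := telescope F J hnest
  calc ∑ j ∈ Finset.Ico 1 (J - 1), ∑ r ∈ (KK g w q).filter (fun r => jb g w q r = j),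
        (Cl A g D (ρ (q, jb g w q r + 1)) \ Cl A g D (ρ (q, jb g w q r - 1))).card
      ≤ ∑ j ∈ Finset.Ico 1 (J - 1), 2 * w * (F (j + 1) \ F (j - 1)).card := by
        apply Finset.sum_le_sum
        intro j _
        have hfib : ((KK g w q).filter (fun r => jb g w q r = j)).card ≤ 2 * w := by
          refine le_trans (Finset.card_le_card ?_) (card_superblock (g := g) hw q j)
          intro r hr
          obtain ⟨h1, h2⟩ := Finset.mem_filter.mp hr
          exact Finset.mem_filter.mpr ⟨(Finset.mem_filter.mp h1).1, h2⟩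
        calc ∑ r ∈ (KK g w q).filter (fun r => jb g w q r = j),
              (Cl A g D (ρ (q, jb g w q r + 1)) \ Cl A g D (ρ (q, jb g w q r - 1))).card
            = ∑ _r ∈ (KK g w q).filter (fun r => jb g w q r = j), (F (j + 1) \ F (j - 1)).card := by
              apply Finset.sum_congr rfl
              intro r hr
              rw [(Finset.mem_filter.mp hr).2]
          _ = ((KK g w q).filter (fun r => jb g w q r = j)).card * (F (j + 1) \ F (j - 1)).card := by
              rw [Finset.sum_const, smul_eq_mul]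
          _ ≤ _ := Nat.mul_le_mul_right _ hfib
    _ = 2 * w * ∑ j ∈ Finset.Ico 1 (J - 1), (F (j + 1) \ F (j - 1)).card := by
        rw [Finset.mul_sum]
    _ ≤ _ := Nat.mul_le_mul_left _ htel

/-- Total cost of one group. -/
theorem group_cost (hw : 0 < w) (hgQ : ∀ r q, g r = some q → q ∈ Q)
    (hgA : ∀ r q, g r = some q → A r q = true) {h : ℕ}
    (hpre : ∀ r q, g r = some q → ((Sr A r).filter (fun c => c < q)).card ≤ 2 * h)
    (hρ : ∀ i ∈ Idx g w Q, ρ i ∈ Xb g w i) (hD : D1 A g w Q ρ ⊆ D)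
    (hfam : ∀ x ∈ RepS g w Q ρ, ∀ y ∈ RepS g w Q ρ, x < y → FS (Cl A g D y) (Cl A g D x))
    {q : Fin n} (hq : q ∈ Q) :
    ∑ r ∈ Gp g q, rowdiff A (Bm A g w Q ρ D) r ≤ (Gp g q).card * (2 * h + D.card) + 6 * w * n +
      2 * ∑ j ∈ range (JJ g w q), Lp A g (ρ (q, j)) + 2 * w * (2 * n) := by
  classical
  rw [← Finset.sum_filter_add_sum_filter_not (Gp g q) (fun r => Kept g w q r)]
  have hcardn : ∀ X : Finset (Fin n), X.card ≤ n := by
    intro X
    calc X.card ≤ (univ : Finset (Fin n)).card := Finset.card_le_card (Finset.subset_univ _)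
      _ = n := by simp
  have h1 : ∑ r ∈ (Gp g q).filter (fun r => ¬ Kept g w q r), rowdiff A (Bm A g w Q ρ D) r ≤
      6 * w * n := by
    calc ∑ r ∈ (Gp g q).filter (fun r => ¬ Kept g w q r), rowdiff A (Bm A g w Q ρ D) r
        ≤ ∑ _r ∈ (Gp g q).filter (fun r => ¬ Kept g w q r), n := by
          apply Finset.sum_le_sum
          intro r hr
          obtain ⟨hr1, hr2⟩ := Finset.mem_filter.mp hr
          have hk : ∀ q', ¬ Kept g w q' r := by
            intro q' hq'
            have e1 := hq'.1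
            rw [mem_Gp.mp hr1] at e1
            have : q' = q := (Option.some.inj e1).symm
            rw [this] at hq'
            exact hr2 hq'
          exact (rowdiff_not_kept r hk).trans (hcardn _)
      _ = ((Gp g q).filter (fun r => ¬ Kept g w q r)).card * n := by
          rw [Finset.sum_const, smul_eq_mul]
      _ ≤ 6 * w * n := Nat.mul_le_mul_right _ (card_not_kept hw q)
  have h2 : ∑ r ∈ (Gp g q).filter (fun r => Kept g w q r), rowdiff A (Bm A g w Q ρ D) r ≤
      (Gp g q).card * (2 * h + D.card) + (∑ r ∈ KK g w q, Yc A q r (ρ (q, jb g w q r + 1)) +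
        ∑ r ∈ KK g w q, Yc A q (ρ (q, jb g w q r - 1)) r +
        ∑ r ∈ KK g w q, (Cl A g D (ρ (q, jb g w q r + 1)) \ Cl A g D (ρ (q, jb g w q r - 1))).card) := by
    have hle : ∀ r ∈ KK g w q, rowdiff A (Bm A g w Q ρ D) r ≤ (2 * h + D.card) +
        (Yc A q r (ρ (q, jb g w q r + 1)) + Yc A q (ρ (q, jb g w q r - 1)) r +
        (Cl A g D (ρ (q, jb g w q r + 1)) \ Cl A g D (ρ (q, jb g w q r - 1))).card) := by
      intro r hr
      have hk := (Finset.mem_filter.mp hr).2
      have h3 := rowdiff_kept hw hgQ hgA hρ hD hfam hk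
      have h4 := hpre r q hk.1
      omega
    calc ∑ r ∈ (Gp g q).filter (fun r => Kept g w q r), rowdiff A (Bm A g w Q ρ D) r
        ≤ ∑ r ∈ KK g w q, ((2 * h + D.card) +
        (Yc A q r (ρ (q, jb g w q r + 1)) + Yc A q (ρ (q, jb g w q r - 1)) r +
        (Cl A g D (ρ (q, jb g w q r + 1)) \ Cl A g D (ρ (q, jb g w q r - 1))).card)) :=
          Finset.sum_le_sum hle
      _ = (KK g w q).card * (2 * h + D.card) + (∑ r ∈ KK g w q, Yc A q r (ρ (q, jb g w q r + 1)) +
        ∑ r ∈ KK g w q, Yc A q (ρ (q, jb g w q r - 1)) r +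
        ∑ r ∈ KK g w q, (Cl A g D (ρ (q, jb g w q r + 1)) \ Cl A g D (ρ (q, jb g w q r - 1))).card) := by
          simp only [Finset.sum_add_distrib, Finset.sum_const, smul_eq_mul]
          ring
      _ ≤ _ := by
          exact Nat.add_le_add_right (Nat.mul_le_mul_right _ (Finset.card_filter_le _ _)) _
  have h3 := kept_sum_up (A := A) hρ hq
  have h4 := kept_sum_lo (A := A) hρ hq
  have h5 := kept_sum_gap (A := A) (D := D) hw hD hq
  omega

end Vale.Agent.Lib.P037.Gamma
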